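import Vale.Agent.Lib.P028I.Level
import Vale.Agent.Lib.P028H.Build

/-! From a function essentially non-increasing on its support to a chain of levels, divisor sum hypothesis. -/

open scoped BigOperators Real
open Finset MeasureTheory
open Vale.Agent.Lib.P028 Vale.Agent.Lib.P028E Vale.Agent.Lib.P028G Vale.Agent.Lib.P028H

namespace Vale.Agent.Lib.P028I

/-- The arithmetic of the range of `X`. Let `β = 1/(2-e)`, `Q ≤ q`, `Z ≥ Q^(1/3)/2` or `Z ≥ K^(1-e)/2`. Then `min K (Q/Z) ≤ 2 q^β`: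
if `Z` is the cube root, `Q/Z ≤ 2 Q^(2/3) ≤ 2 q^β` since `β ≥ 2/3`. Otherwise `Q/Z ≤ 2 Q / K^(1-e)`; if `K ≤ Q^β` then `min ≤ K ≤ q^β`, and
if `K > Q^β` then `K^(1-e) > Q^(β(1-e))`, `Q / K^(1-e) < Q^(1-β(1-e)) = Q^β`. -/
theorem range_arith (e : ℝ) (he : 1 / 2 ≤ e) (he1 : e < 1) (q Q K Z : ℕ) (hQ : 0 < Q) (hQq : Q ≤ q)
    (hK : 0 < K) (hZ : 0 < Z)
    (hZ' : (Q : ℝ) < (2 * (Z : ℝ)) ^ 3 ∨ (K : ℝ) ^ (1 - e) ≤ 2 * (Z : ℝ)) :
    min (K : ℝ) ((Q : ℝ) / Z) ≤ 2 * (q : ℝ) ^ (1 / (2 - e)) := by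
  have hQ0 : (0:ℝ) < Q := by exact_mod_cast hQ
  have hQ1 : (1:ℝ) ≤ Q := by exact_mod_cast hQ
  have hq1 : (1:ℝ) ≤ q := by exact_mod_cast (le_trans hQ hQq)
  have hK0 : (0:ℝ) < K := by exact_mod_cast hK
  have hZ0 : (0:ℝ) < Z := by exact_mod_cast hZ
  have hQq' : (Q:ℝ) ≤ q := by exact_mod_cast hQq
  have h2e : 0 < 2 - e := by linarith
  obtain ⟨β, hβ⟩ : ∃ β : ℝ, β = 1 / (2 - e) := ⟨_, rfl⟩
  rw [← hβ]
  have hβ0 : 0 < β := by rw [hβ]; positivity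
  have hβid : β * (2 - e) = 1 := by rw [hβ]; field_simp
  have hβ23 : 2 / 3 ≤ β := by
    by_contra hcon
    push Not at hcon
    nlinarith
  have hQβ : (Q:ℝ) ^ β ≤ (q:ℝ) ^ β := Real.rpow_le_rpow hQ0.le hQq' hβ0.le
  have hqβ0 : 0 < (q:ℝ)^β := by positivity
  have hQβ0 : 0 < (Q:ℝ)^β := by positivity
  rcases hZ' with h | h
  · apply (min_le_right _ _).trans
    rw [div_le_iff₀ hZ0]
    have h13 : (Q:ℝ) ^ ((1:ℝ)/3) ≤ 2 * Z := by
      have := Real.rpow_le_rpow hQ0.le h.le (by norm_num : (0:ℝ) ≤ 1/3)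
      have h2 : (((2 * (Z:ℝ)) ^ 3 : ℝ)) ^ ((1:ℝ)/3) = 2 * Z := by
        rw [← Real.rpow_natCast, ← Real.rpow_mul (by positivity)]
        norm_num
      rwa [h2] at this
    have hsplit : (Q:ℝ) = (Q:ℝ)^((2:ℝ)/3) * (Q:ℝ)^((1:ℝ)/3) := by
      rw [← Real.rpow_add hQ0]; norm_num
    have h23 : (Q:ℝ)^((2:ℝ)/3) ≤ (q:ℝ)^β := by
      calc (Q:ℝ)^((2:ℝ)/3) ≤ (Q:ℝ)^β := Real.rpow_le_rpow_of_exponent_le hQ1 hβ23
        _ ≤ _ := hQβ
    calc (Q:ℝ) = (Q:ℝ)^((2:ℝ)/3) * (Q:ℝ)^((1:ℝ)/3) := hsplit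
      _ ≤ (q:ℝ)^β * (2 * Z) := mul_le_mul h23 h13 (by positivity) hqβ0.le
      _ = 2 * (q:ℝ)^β * Z := by ring
  · by_cases hc : (K:ℝ) ≤ (Q:ℝ)^β
    · apply (min_le_left _ _).trans
      linarith
    · push Not at hc
      apply (min_le_right _ _).trans
      rw [div_le_iff₀ hZ0]
      have hexp : 0 ≤ 1 - e := by linarith
      have hlow : (Q:ℝ)^(β * (1-e)) ≤ 2 * Z := by
        calc (Q:ℝ)^(β*(1-e)) = ((Q:ℝ)^β)^(1-e) := Real.rpow_mul hQ0.le _ _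
          _ ≤ (K:ℝ)^(1-e) := Real.rpow_le_rpow hQβ0.le hc.le hexp
          _ ≤ _ := h
      have hsplit : (Q:ℝ) = (Q:ℝ)^β * (Q:ℝ)^(β*(1-e)) := by
        rw [← Real.rpow_add hQ0]
        have : β + β * (1-e) = 1 := by nlinarith [hβid]
        rw [this, Real.rpow_one]
      calc (Q:ℝ) = (Q:ℝ)^β * (Q:ℝ)^(β*(1-e)) := hsplit
        _ ≤ (q:ℝ)^β * (2*Z) := mul_le_mul hQβ hlow (by positivity) hqβ0.le
        _ = 2 * (q:ℝ)^β * Z := by ring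

/-- The bound `t ≤ 4 K^(1-e)` from `t ^ (1/(1-e)) * p ≤ 1` and `1 < 16 K p`. -/
private theorem tau_arith (e t p : ℝ) (he : 1 / 2 ≤ e) (he1 : e < 1) (ht : 1 ≤ t) (hp : 0 < p) (K : ℕ)
    (hKp : 1 < 16 * (K : ℝ) * p) (hA : t ^ (1 / (1 - e)) * p ≤ 1) :
    t ≤ 4 * (K : ℝ) ^ (1 - e) := by
  have h1e : 0 < 1 - e := by linarith
  have h1e2 : 1 - e ≤ 1 / 2 := by linarith
  have hKpos : (0 : ℝ) < K := by
    by_contra hne
    have hz : (K : ℝ) = 0 := le_antisymm (not_lt.mp hne) (Nat.cast_nonneg K)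
    rw [hz] at hKp
    norm_num at hKp
  have ht0 : 0 < t := by linarith
  have htc0 : 0 < t ^ (1 / (1 - e)) := Real.rpow_pos_of_pos ht0 _
  have ha1 : t ^ (1 / (1 - e)) < 16 * K := by
    have : t ^ (1 / (1 - e)) * p < 16 * K * p := lt_of_le_of_lt hA hKp
    exact lt_of_mul_lt_mul_right this hp.le
  have h16a : (16 : ℝ) ^ (1 - e) ≤ 4 := by
    calc (16 : ℝ) ^ (1 - e) ≤ (16 : ℝ) ^ ((1 : ℝ) / 2) :=
          Real.rpow_le_rpow_of_exponent_le (by norm_num) h1e2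
      _ = 4 := by
          rw [show (16 : ℝ) = (4 : ℝ) ^ (2 : ℝ) by norm_num, ← Real.rpow_mul (by norm_num)]
          norm_num
  have hKy : (0 : ℝ) < (K : ℝ) ^ (1 - e) := Real.rpow_pos_of_pos hKpos _
  calc t = (t ^ (1 / (1 - e))) ^ (1 - e) := by
        rw [← Real.rpow_mul ht0.le, one_div, inv_mul_cancel₀ h1e.ne', Real.rpow_one]
    _ ≤ (16 * (K : ℝ)) ^ (1 - e) := Real.rpow_le_rpow htc0.le ha1.le h1e.le
    _ = (16 : ℝ) ^ (1 - e) * (K : ℝ) ^ (1 - e) := Real.mul_rpow (by norm_num) hKpos.le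
    _ ≤ 4 * (K : ℝ) ^ (1 - e) := mul_le_mul_of_nonneg_right h16a hKy.le

/-- Same proof as `P028H.exists_levels_w`, with `hD` instead of `hsize`.
`Z r = min (cube root of Q r) ⌊K r ^ (1-e)⌋₊` as there. `hzt` with `C10 = 5`: from `hτ`, `t ^ (1/(1-e)) ≤ 1/ψ q < 16 K` gives `t ≤ 4 K^(1-e)`.
The field `hD` with `C11' = 4 * C11`: for `X ≤ 2 min (K r) (Q r / Z r)`: `X ≤ 2 K r ≤ 1/ψ q ≤ A/ψ q` (as `K r ψ q ≤ 1/8`, `A ≥ 1`), and `X ≤ 4 q^β ≤ 8 q^β` by `range_arith`.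
Then `hdsum` gives `dsum q X ≤ C11 √(X/ψ q) ≤ C11 √(16 X K r)` since `1/ψ q < 16 K r`.
`ψ q ≤ 1/9` is `hle`. -/
theorem exists_levels_I (ψ f : ℕ → ℝ) (hf0 : ∀ q, 0 ≤ f q) (e A C11 : ℝ) (he : 1 / 2 ≤ e) (he1 : e < 1)
    (hA : 1 ≤ A) (hC11 : 0 ≤ C11)
    (hfσ : ∀ q, 0 < ψ q → f q * (∑ d ∈ q.divisors, (d : ℝ)) ≤ q)
    (hchain : ∀ q r, 0 < ψ q → 0 < ψ r → Nat.log 2 q < Nat.log 2 r → ψ r ≤ ψ q)
    (hle : ∀ q, 0 < ψ q → ψ q ≤ 1 / 9)
    (hτ : ∀ q, 0 < ψ q → (q.divisors.card : ℝ) ^ (1 / (1 - e)) * ψ q ≤ 1)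
    (hdsum : ∀ q, 0 < ψ q → ∀ X : ℝ, 0 ≤ X → X ≤ min (A / ψ q) (8 * (q : ℝ) ^ (1 / (2 - e))) →
      dsum q X ≤ C11 * Real.sqrt (X / ψ q))
    (Bk : Finset ℕ) (hBk : ∀ q ∈ Bk, 1 ≤ q ∧ 0 < ψ q) :
    ∃ (I : Finset ℕ) (Q K Z : ℕ → ℕ) (τ : ℕ → ℝ) (S : ℕ → Finset ℕ),
      LevelDataI f e (4 * C11) 5 I Q K Z τ S ∧
      (∀ q ∈ Bk, ∃ r ∈ I, q ∈ S r) ∧
      (∀ r ∈ I, ∀ q ∈ S r, (K r : ℝ) * ψ q ≤ 1 / 8) ∧
      ∑ r ∈ I, (∑ q ∈ S r, f q) / K r ≤ 16 * ∑ q ∈ Bk, f q * ψ q := by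
  classical
  have hτ' := hτ
  clear hτ
  have hcard1 : ∀ q ∈ Bk, (1 : ℝ) ≤ (q.divisors.card : ℝ) := by
    intro q hq
    have hq0 : q ≠ 0 := by have := (hBk q hq).1; omega
    have : 0 < q.divisors.card := Finset.card_pos.2 ⟨1, Nat.one_mem_divisors.2 hq0⟩
    exact_mod_cast this
  have hle' : ∀ q ∈ Bk, ψ q ≤ 1 / 9 := fun q hq => hle q (hBk q hq).2
  have hk0 : ∀ q ∈ Bk, ∃ k : ℕ, (1 / 2 : ℝ) ^ (k + 1) < ψ q ∧ ψ q ≤ (1 / 2 : ℝ) ^ k := by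
    intro q hq
    exact exists_kk (hBk q hq).2 (by have := hle' q hq; linarith)
  choose! k hk using hk0
  have hk3 : ∀ q ∈ Bk, 3 ≤ k q := by
    intro q hq
    by_contra hc
    have hc' : k q + 1 ≤ 3 := by omega
    have h1 : (1 / 2 : ℝ) ^ 3 ≤ (1 / 2 : ℝ) ^ (k q + 1) :=
      pow_le_pow_of_le_one (by norm_num) (by norm_num) hc'
    have h2 := (hk q hq).1
    have h3 := hle' q hq
    norm_num at h1
    linarith
  have hkle : ∀ q ∈ Bk, ∀ q' ∈ Bk, ψ q' ≤ ψ q → k q ≤ k q' := by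
    intro q hq q' hq' hqq
    by_contra hc
    have hc' : k q' + 1 ≤ k q := by omega
    have h1 : (1 / 2 : ℝ) ^ (k q) ≤ (1 / 2 : ℝ) ^ (k q' + 1) :=
      pow_le_pow_of_le_one (by norm_num) (by norm_num) hc'
    have h2 := (hk q' hq').1
    have h3 := (hk q hq).2
    linarith
  obtain ⟨j, hj⟩ : ∃ j : ℕ → ℕ, ∀ q, j q = Nat.log 2 q := ⟨_, fun _ => rfl⟩
  obtain ⟨rank, hrank⟩ : ∃ rank : ℕ → ℕ, ∀ q, rank q = j q + k q := ⟨_, fun _ => rfl⟩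
  have hjk : ∀ q ∈ Bk, ∀ q' ∈ Bk, j q < j q' → k q ≤ k q' := by
    intro q hq q' hq' h
    rw [hj, hj] at h
    exact hkle q hq q' hq' (hchain q q' (hBk q hq).2 (hBk q' hq').2 h)
  have hchain2 : ∀ q ∈ Bk, ∀ q' ∈ Bk, rank q ≤ rank q' → j q ≤ j q' ∧ k q ≤ k q' := by
    intro q hq q' hq' hr
    rw [hrank, hrank] at hr
    rcases lt_trichotomy (j q) (j q') with h | h | h
    · exact ⟨h.le, hjk q hq q' hq' h⟩
    · exact ⟨h.le, by omega⟩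
    · have := hjk q' hq' q hq h
      omega
  obtain ⟨I, hI⟩ : ∃ I : Finset ℕ, I = Bk.image rank := ⟨_, rfl⟩
  obtain ⟨S, hS⟩ : ∃ S : ℕ → Finset ℕ, ∀ r q, q ∈ S r ↔ q ∈ Bk ∧ rank q = r :=
    ⟨fun r => Bk.filter (fun q => rank q = r), fun r q => Finset.mem_filter⟩
  have hIex : ∀ r ∈ I, ∃ q, q ∈ S r := by
    intro r hr
    rw [hI] at hr
    obtain ⟨q, hq, hqr⟩ := Finset.mem_image.1 hr
    exact ⟨q, (hS r q).2 ⟨hq, hqr⟩⟩
  choose! rep hrepS using hIex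
  have hrepB : ∀ r ∈ I, rep r ∈ Bk := fun r hr => ((hS r _).1 (hrepS r hr)).1
  have hreprank : ∀ r ∈ I, rank (rep r) = r := fun r hr => ((hS r _).1 (hrepS r hr)).2
  have hSrep : ∀ r ∈ I, ∀ q ∈ S r, j q = j (rep r) ∧ k q = k (rep r) := by
    intro r hr q hq
    obtain ⟨hqB, hqr⟩ := (hS r q).1 hq
    have h1 := hchain2 q hqB _ (hrepB r hr) (by rw [hqr, hreprank r hr])
    have h2 := hchain2 _ (hrepB r hr) q hqB (by rw [hqr, hreprank r hr])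
    omega
  obtain ⟨Q, hQ⟩ : ∃ Q : ℕ → ℕ, ∀ r, Q r = 2 ^ j (rep r) := ⟨_, fun _ => rfl⟩
  obtain ⟨K, hK⟩ : ∃ K : ℕ → ℕ, ∀ r, K r = 2 ^ (k (rep r) - 3) := ⟨_, fun _ => rfl⟩
  have hQpos : ∀ r, 0 < Q r := fun r => by rw [hQ]; positivity
  have hKpos : ∀ r, 0 < K r := fun r => by rw [hK]; positivity
  obtain ⟨Zc, hZc1, hZc3, hZclt⟩ : ∃ Z : ℕ → ℕ, (∀ r, 1 ≤ Z r) ∧ (∀ r, Z r ^ 3 ≤ Q r) ∧
      (∀ r, Q r < (2 * Z r) ^ 3) := by
    choose Z hZ using fun r => exists_cube_root (Q r) (hQpos r)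
    exact ⟨Z, fun r => (hZ r).1, fun r => (hZ r).2.1, fun r => (hZ r).2.2⟩
  have hY1 : ∀ r, (1 : ℝ) ≤ (K r : ℝ) ^ (1 - e) := by
    intro r
    refine Real.one_le_rpow ?_ (by linarith)
    exact_mod_cast hKpos r
  obtain ⟨F, hF⟩ : ∃ F : ℕ → ℕ, ∀ r, F r = ⌊(K r : ℝ) ^ (1 - e)⌋₊ := ⟨_, fun _ => rfl⟩
  have hF1 : ∀ r, 1 ≤ F r := by
    intro r
    rw [hF]
    apply Nat.le_floor
    simpa using hY1 r
  have hFle : ∀ r, (F r : ℝ) ≤ (K r : ℝ) ^ (1 - e) := by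
    intro r
    rw [hF]
    exact Nat.floor_le (by linarith [hY1 r])
  have hYle : ∀ r, (K r : ℝ) ^ (1 - e) ≤ 2 * (F r : ℝ) := by
    intro r
    have h1 : (K r : ℝ) ^ (1 - e) < (F r : ℝ) + 1 := by
      rw [hF]
      exact Nat.lt_floor_add_one _
    have h2 : (1 : ℝ) ≤ F r := by exact_mod_cast hF1 r
    linarith
  obtain ⟨Z, hZ⟩ : ∃ Z : ℕ → ℕ, ∀ r, Z r = min (Zc r) (F r) := ⟨_, fun _ => rfl⟩
  have hZ1' : ∀ r, 1 ≤ Z r := fun r => by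
    rw [hZ]
    exact le_min (hZc1 r) (hF1 r)
  have hZ3' : ∀ r, Z r ^ 3 ≤ Q r := fun r =>
    (Nat.pow_le_pow_left (by rw [hZ]; exact min_le_left _ _) 3).trans (hZc3 r)
  have hZY : ∀ r, (Z r : ℝ) ≤ (K r : ℝ) ^ (1 - e) := fun r => by
    have h1 : Z r ≤ F r := by rw [hZ]; exact min_le_right _ _
    have h2 : (Z r : ℝ) ≤ F r := by exact_mod_cast h1
    exact h2.trans (hFle r)
  obtain ⟨τ, hτ⟩ : ∃ τ : ℕ → ℕ, ∀ r, τ r = (S r).sup (fun q => q.divisors.card) := ⟨_, fun _ => rfl⟩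
  have hrange : ∀ r ∈ I, ∀ q ∈ S r, Q r ≤ q ∧ q < 2 * Q r := by
    intro r hr q hq
    obtain ⟨hqB, -⟩ := (hS r q).1 hq
    have hq0 : q ≠ 0 := by have := (hBk q hqB).1; omega
    have e' := (hSrep r hr q hq).1
    have h1 : 2 ^ j q ≤ q := by rw [hj]; exact Nat.pow_log_le_self 2 hq0
    have h2 : q < 2 ^ (j q + 1) := by rw [hj]; exact Nat.lt_pow_succ_log_self (by norm_num) q
    rw [hQ, ← e']
    constructor
    · exact h1
    · rw [pow_succ] at h2; omega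
  have hchainI : ∀ r ∈ I, ∀ s ∈ I, r ≤ s → j (rep r) ≤ j (rep s) ∧ k (rep r) ≤ k (rep s) := by
    intro r hr s hs hrs
    exact hchain2 _ (hrepB r hr) _ (hrepB s hs) (by rw [hreprank r hr, hreprank s hs]; exact hrs)
  have hKrpos : ∀ r, (0 : ℝ) < (K r : ℝ) := fun r => by exact_mod_cast hKpos r
  have hKpsi : ∀ r ∈ I, ∀ q ∈ S r, 1 < 16 * (K r : ℝ) * ψ q ∧ (K r : ℝ) * ψ q ≤ 1 / 8 := by
    intro r hr q hq
    obtain ⟨hqB, -⟩ := (hS r q).1 hq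
    have e' := (hSrep r hr q hq).2
    have h3 := hk3 q hqB
    obtain ⟨h1, h2⟩ := hk q hqB
    rw [hK, ← e']
    exact kk_step _ _ h3 h1 h2
  -- the value of `τ r` at a point of the level, and the size arithmetic there
  have hmax : ∀ r ∈ I, ∃ q ∈ S r, ((τ r : ℕ) : ℝ) = (q.divisors.card : ℝ) := by
    intro r hr
    obtain ⟨q, hq, hqs⟩ := Finset.exists_mem_eq_sup (S r) ⟨_, hrepS r hr⟩ (fun q => q.divisors.card)
    exact ⟨q, hq, by rw [hτ, hqs]⟩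
  refine ⟨I, Q, K, Z, fun r => (τ r : ℝ), S, ?_, ?_, ?_, ?_⟩
  · refine ⟨fun r _ => hQpos r, fun r _ => hKpos r, fun r _ => hZ1' r, fun r _ => hZ3' r, hrange,
      ?_, ?_, ?_, ?_, ?_, ?_, ?_, ?_⟩
    · intro r _ q hq
      exact hfσ q (hBk q ((hS r q).1 hq).1).2
    · intro r _ q hq
      have : q.divisors.card ≤ (S r).sup (fun q => q.divisors.card) :=
        Finset.le_sup (f := fun q => q.divisors.card) hq
      rw [← hτ] at this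
      exact_mod_cast this
    · intro r hr
      obtain ⟨q, hq, hqe⟩ := hmax r hr
      show (1 : ℝ) ≤ ((τ r : ℕ) : ℝ)
      rw [hqe]
      exact hcard1 q ((hS r q).1 hq).1
    · -- the divisor sum condition
      intro r hr q hq X hX0 hX
      obtain ⟨hqB, -⟩ := (hS r q).1 hq
      obtain ⟨-, hp⟩ := hBk q hqB
      obtain ⟨hKp, hKp8⟩ := hKpsi r hr q hq
      have hZr : 0 < Z r := hZ1' r
      have hZ' : (Q r : ℝ) < (2 * (Z r : ℝ)) ^ 3 ∨ (K r : ℝ) ^ (1 - e) ≤ 2 * (Z r : ℝ) := by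
        rcases le_total (Zc r) (F r) with h | h
        · left
          have hZe : Z r = Zc r := by rw [hZ]; exact min_eq_left h
          rw [hZe]
          exact_mod_cast hZclt r
        · right
          have hZe : Z r = F r := by rw [hZ]; exact min_eq_right h
          rw [hZe]
          exact hYle r
      have hrg := range_arith e he he1 q (Q r) (K r) (Z r) (hQpos r) (hrange r hr q hq).1 (hKpos r)
        hZr hZ'
      have hX1 : X ≤ 2 * (K r : ℝ) := hX.trans (mul_le_mul_of_nonneg_left (min_le_left _ _) (by norm_num))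
      have hX2 : X ≤ 8 * (q : ℝ) ^ (1 / (2 - e)) := by
        have hq0 : (0 : ℝ) ≤ (q : ℝ) ^ (1 / (2 - e)) := by positivity
        nlinarith
      have hX3 : X ≤ A / ψ q := by
        rw [le_div_iff₀ hp]
        have hX0' := mul_le_mul_of_nonneg_right hX1 hp.le
        have hψ := hBk q hqB
        nlinarith
      have hd := hdsum q hp X hX0 (le_min hX3 hX2)
      have hsq : Real.sqrt (X / ψ q) ≤ 4 * Real.sqrt (X * (K r : ℝ)) := by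
        have h4 : (4 : ℝ) = Real.sqrt 16 := by
          rw [show (16 : ℝ) = 4 ^ 2 by norm_num, Real.sqrt_sq (by norm_num)]
        rw [h4, ← Real.sqrt_mul (by norm_num)]
        apply Real.sqrt_le_sqrt
        rw [div_le_iff₀ hp]
        have hK0 : (0 : ℝ) ≤ X := hX0
        nlinarith [mul_le_mul_of_nonneg_left hKp.le hX0]
      calc dsum q X ≤ C11 * Real.sqrt (X / ψ q) := hd
        _ ≤ C11 * (4 * Real.sqrt (X * (K r : ℝ))) := mul_le_mul_of_nonneg_left hsq hC11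
        _ = 4 * C11 * Real.sqrt (X * (K r : ℝ)) := by ring
    · intro r hr
      obtain ⟨q, hq, hqe⟩ := hmax r hr
      obtain ⟨hqB, -⟩ := (hS r q).1 hq
      obtain ⟨-, hp⟩ := hBk q hqB
      have ha := tau_arith e (q.divisors.card : ℝ) (ψ q) he he1 (hcard1 q hqB) hp (K r)
        (hKpsi r hr q hq).1 (hτ' q hp)
      show (Z r : ℝ) + ((τ r : ℕ) : ℝ) ≤ 5 * (K r : ℝ) ^ (1 - e)
      rw [hqe]
      have := hZY r
      linarith
    · intro r hr s hs hrs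
      rw [hQ, hQ]
      exact Nat.pow_le_pow_right (by norm_num) (hchainI r hr s hs hrs).1
    · intro r hr s hs hrs
      have h1 := (hchainI r hr s hs hrs).2
      rw [hK, hK]
      exact Nat.pow_le_pow_right (by norm_num) (by omega)
    · intro r hr s hs hrs
      have h1 := hk3 _ (hrepB r hr)
      have h2 := hk3 _ (hrepB s hs)
      have h3 := hreprank r hr
      have h4 := hreprank s hs
      rw [hrank] at h3 h4
      have e' : (s - r) + (j (rep r) + (k (rep r) - 3)) = j (rep s) + (k (rep s) - 3) := by omega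
      have hfin : (2 : ℝ) ^ (s - r) * (((Q r : ℕ) : ℝ) * ((K r : ℕ) : ℝ)) =
          ((Q s : ℕ) : ℝ) * ((K s : ℕ) : ℝ) := by
        rw [hQ, hK, hQ, hK]
        push_cast
        rw [← pow_add, ← pow_add, ← pow_add, e']
      exact hfin.le
  · intro q hq
    refine ⟨rank q, ?_, (hS _ q).2 ⟨hq, rfl⟩⟩
    rw [hI]
    exact Finset.mem_image_of_mem _ hq
  · intro r hr q hq
    exact (hKpsi r hr q hq).2
  · have hfib : ∑ q ∈ Bk, f q * ψ q = ∑ r ∈ I, ∑ q ∈ S r, f q * ψ q := by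
      have hS' : ∀ r, S r = Bk.filter (fun q => rank q = r) := by
        intro r
        ext q
        rw [hS, Finset.mem_filter]
      simp_rw [hS']
      rw [hI]
      rw [Finset.sum_fiberwise_of_maps_to (g := rank) (fun q hq => Finset.mem_image_of_mem _ hq)]
    rw [hfib, Finset.mul_sum]
    apply Finset.sum_le_sum
    intro r hr
    rw [Finset.mul_sum, Finset.sum_div]
    apply Finset.sum_le_sum
    intro q hq
    obtain ⟨hKp, -⟩ := hKpsi r hr q hq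
    have hKR := hKrpos r
    rw [div_le_iff₀ hKR]
    have hf := hf0 q
    nlinarith [mul_le_mul_of_nonneg_left hKp.le hf]


end Vale.Agent.Lib.P028I
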