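import Vale.Agent.Lib.P028H.Fam

/-! The large denominators, with the divisor sum instead of the divisor count in the diagonal term. -/

open scoped BigOperators ComplexConjugate
open Finset
open Vale.Agent.Lib.P028G Vale.Agent.Lib.P028H

namespace Vale.Agent.Lib.P028I

/-- The sum of the divisors of `q` below `X`. -/
noncomputable def dsum (q : ℕ) (X : ℝ) : ℝ :=
  ∑ t ∈ q.divisors.filter (fun t : ℕ => (t : ℝ) < X), (t : ℝ)

/-- As `P028H.fam_B_H`, but the diagonal term is kept as a divisor sum. For `d ∣ q` occurring (`d = ρ.den`, `ρ ∈ Λ`): `1/d ≤ ρ < y`,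
so `min y (1/d) = 1/d`, `Q/d ≤ q/d =: t`, and `t < q y < 2 Q y`, `t < q / Z < 2 Q / Z` since `d > Z ≥ 1`, `q < 2 Q`.
`d ↦ q/d` is injective on divisors, so `∑ 3 Q min(y,1/d) ≤ 3 dsum q X ≤ 3 DD`. The other terms as in `fam_B_H`. -/
theorem fam_B_I (γ K y C e τ DD : ℝ) (Q Z : ℕ) (hQ : 0 < Q) (hZ1 : 1 ≤ Z) (hC : 0 ≤ C) (he : 0 < e)
    (hR : RowBd γ C e) (hnz : ∀ n : ℕ, 0 < n → 0 < nrm ((n : ℝ) * γ))
    (hK : 0 < K) (hy : 0 < y) (hyK : y ≤ K / Q) (hτ0 : 0 ≤ τ) (hDD : 0 ≤ DD) (S : Finset ℕ)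
    (hS : ∀ q ∈ S, Q ≤ q ∧ q < 2 * Q) (f : ℕ → ℝ) (hf0 : ∀ q, 0 ≤ f q) (hf1 : ∀ q, f q ≤ 1)
    (hfσ : ∀ q ∈ S, f q * (∑ d ∈ q.divisors, (d : ℝ)) ≤ q)
    (hτ : ∀ q ∈ S, (q.divisors.card : ℝ) ≤ τ)
    (hD : ∀ q ∈ S, dsum q (2 * Q * min y (1 / (Z : ℝ))) ≤ DD) (Λ : Finset ℚ)
    (hΛ : ∀ ρ ∈ Λ, 0 < ρ ∧ (ρ : ℝ) < y ∧ Z < ρ.den) :
    ∑ ρ ∈ Λ, ‖coefW γ K S f ρ‖ ^ 2 ≤ (∑ q ∈ S, f q) *
      (3 * DD + 16 * C * τ * (y * Q) ^ e + 32 * C * y * Q) := by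
  classical
  set E : ℝ := (y * Q) ^ e with hE
  have hZ0 : (0 : ℝ) < Z := by exact_mod_cast hZ1
  have hQ' : (0 : ℝ) < Q := by exact_mod_cast hQ
  have hE0 : 0 ≤ E := Real.rpow_nonneg (by positivity) _
  set D : Finset ℕ := Λ.image (fun ρ => ρ.den) with hDdef
  have hsplit : ∑ ρ ∈ Λ, ‖coefW γ K S f ρ‖ ^ 2 =
      ∑ d ∈ D, ∑ ρ ∈ Λ.filter (fun ρ => ρ.den = d), ‖coefW γ K S f ρ‖ ^ 2 :=
    (Finset.sum_fiberwise_of_maps_to (fun ρ hρ => mem_image_of_mem _ hρ) _).symm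
  have hline : ∀ d ∈ D, ∑ ρ ∈ Λ.filter (fun ρ => ρ.den = d), ‖coefW γ K S f ρ‖ ^ 2 ≤
      (∑ q ∈ S.filter (d ∣ ·), f q ^ 2) *
        (3 * (Q : ℝ) * min y (1 / (d : ℝ)) + 16 * C * (y * d + E)) := by
    intro d _
    exact fam_line_H γ K y C e Q d hQ hC he hR hnz hK hy hyK S hS f
      (Λ.filter (fun ρ => ρ.den = d))
      (fun ρ hρ => by
        obtain ⟨h1, h2⟩ := mem_filter.1 hρ
        exact ⟨(hΛ ρ h1).1, (hΛ ρ h1).2.1, h2⟩)
  -- the facts on the denominators which occur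
  have hDfact : ∀ d ∈ D, (1 : ℝ) / d < y ∧ Z < d := by
    intro d hd
    obtain ⟨ρ, hρ, rfl⟩ := mem_image.1 hd
    obtain ⟨h0, h1, h2⟩ := hΛ ρ hρ
    refine ⟨lt_of_le_of_lt ?_ h1, h2⟩
    have hnum : (1 : ℤ) ≤ ρ.num := Rat.num_pos.2 h0
    have hnum' : (1 : ℝ) ≤ (ρ.num : ℝ) := by exact_mod_cast hnum
    have hden : (0 : ℝ) < (ρ.den : ℝ) := by exact_mod_cast ρ.den_pos
    rw [Rat.cast_def]
    exact div_le_div_of_nonneg_right hnum' hden.le
  -- the diagonal term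
  have hkey : ∀ q ∈ S, ∑ d ∈ D.filter (· ∣ q), (Q : ℝ) * min y (1 / (d : ℝ)) ≤ DD := by
    intro q hq
    refine le_trans ?_ (hD q hq)
    obtain ⟨hq1, hq2⟩ := hS q hq
    have hq0 : 0 < q := by omega
    have hqQ1 : (Q : ℝ) ≤ q := by exact_mod_cast hq1
    have hqQ2 : (q : ℝ) < 2 * Q := by exact_mod_cast hq2
    have hq0' : (0 : ℝ) < q := by exact_mod_cast hq0
    have hcast : ∀ d ∈ D.filter (· ∣ q), ((q / d : ℕ) : ℝ) = (q : ℝ) * (1 / (d : ℝ)) := by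
      intro d hd
      obtain ⟨hd1, hd2⟩ := mem_filter.1 hd
      have hdpos : 0 < d := Nat.pos_of_dvd_of_pos hd2 hq0
      have hd0 : (d : ℝ) ≠ 0 := by exact_mod_cast hdpos.ne'
      rw [Nat.cast_div hd2 hd0]
      ring
    have hinj : Set.InjOn (fun d : ℕ => q / d) (D.filter (· ∣ q) : Set ℕ) := by
      intro d1 h1 d2 h2 h12
      have hd1 : d1 ∣ q := (mem_filter.1 (Finset.mem_coe.1 h1)).2
      have hd2 : d2 ∣ q := (mem_filter.1 (Finset.mem_coe.1 h2)).2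
      have e1 := Nat.div_mul_cancel hd1
      have e2 := Nat.div_mul_cancel hd2
      have h12' : q / d1 = q / d2 := h12
      rw [← h12'] at e2
      have hpos : 0 < q / d1 := Nat.div_pos (Nat.le_of_dvd hq0 hd1) (Nat.pos_of_dvd_of_pos hd1 hq0)
      exact Nat.eq_of_mul_eq_mul_left hpos (e1.trans e2.symm)
    calc ∑ d ∈ D.filter (· ∣ q), (Q : ℝ) * min y (1 / (d : ℝ))
        ≤ ∑ d ∈ D.filter (· ∣ q), ((q / d : ℕ) : ℝ) := by
          refine Finset.sum_le_sum fun d hd => ?_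
          rw [hcast d hd]
          have hdpos : (0 : ℝ) ≤ 1 / (d : ℝ) := by positivity
          calc (Q : ℝ) * min y (1 / (d : ℝ)) ≤ (Q : ℝ) * (1 / (d : ℝ)) :=
                mul_le_mul_of_nonneg_left (min_le_right _ _) hQ'.le
            _ ≤ (q : ℝ) * (1 / (d : ℝ)) := mul_le_mul_of_nonneg_right hqQ1 hdpos
      _ = ∑ t ∈ (D.filter (· ∣ q)).image (fun d : ℕ => q / d), (t : ℝ) :=
          (Finset.sum_image hinj).symm
      _ ≤ dsum q (2 * Q * min y (1 / (Z : ℝ))) := by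
          unfold dsum
          refine Finset.sum_le_sum_of_subset_of_nonneg ?_ fun _ _ _ => Nat.cast_nonneg _
          intro t ht
          obtain ⟨d, hd, rfl⟩ := mem_image.1 ht
          obtain ⟨hd1, hd2⟩ := mem_filter.1 hd
          obtain ⟨h1y, hZd⟩ := hDfact d hd1
          refine mem_filter.2 ⟨Nat.mem_divisors.2 ⟨Nat.div_dvd_of_dvd hd2, hq0.ne'⟩, ?_⟩
          rw [hcast d hd]
          have hdpos : (0 : ℝ) < d := by
            exact_mod_cast Nat.pos_of_dvd_of_pos hd2 hq0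
          have hinv : (0 : ℝ) < 1 / (d : ℝ) := by positivity
          have h2Q : (0 : ℝ) < 2 * Q := by positivity
          have hlt : (q : ℝ) * (1 / (d : ℝ)) < 2 * Q * (1 / (d : ℝ)) :=
            mul_lt_mul_of_pos_right hqQ2 hinv
          have hZd' : (Z : ℝ) < d := by exact_mod_cast hZd
          have h1Z : (1 : ℝ) / d < 1 / (Z : ℝ) := one_div_lt_one_div_of_lt hZ0 hZd'
          have hm : (1 : ℝ) / d < min y (1 / (Z : ℝ)) := lt_min h1y h1Z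
          exact hlt.trans (mul_lt_mul_of_pos_left hm h2Q)
  rw [hsplit]
  calc ∑ d ∈ D, ∑ ρ ∈ Λ.filter (fun ρ => ρ.den = d), ‖coefW γ K S f ρ‖ ^ 2
      ≤ ∑ d ∈ D, (∑ q ∈ S.filter (d ∣ ·), f q ^ 2) *
          (3 * (Q : ℝ) * min y (1 / (d : ℝ)) + 16 * C * (y * d + E)) :=
        Finset.sum_le_sum hline
    _ = ∑ d ∈ D, ∑ q ∈ S, if d ∣ q then
          f q ^ 2 * (3 * (Q : ℝ) * min y (1 / (d : ℝ)) + 16 * C * (y * d + E)) else 0 := by
        refine Finset.sum_congr rfl fun d _ => ?_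
        rw [← Finset.sum_filter, Finset.sum_mul]
    _ = ∑ q ∈ S, ∑ d ∈ D, if d ∣ q then
          f q ^ 2 * (3 * (Q : ℝ) * min y (1 / (d : ℝ)) + 16 * C * (y * d + E)) else 0 :=
        Finset.sum_comm
    _ ≤ ∑ q ∈ S, f q * (3 * DD + 16 * C * τ * E + 32 * C * y * Q) := by
        refine Finset.sum_le_sum fun q hq => ?_
        obtain ⟨hq1, hq2⟩ := hS q hq
        have hq0 : q ≠ 0 := by omega
        rw [← Finset.sum_filter]
        have hsub : D.filter (· ∣ q) ⊆ q.divisors := by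
          intro d hd
          exact Nat.mem_divisors.2 ⟨(mem_filter.1 hd).2, hq0⟩
        have hf0q := hf0 q
        have hf1q := hf1 q
        have hff : f q ^ 2 ≤ f q := by nlinarith
        have hqQ : (q : ℝ) ≤ 2 * Q := by
          have : (q : ℝ) ≤ ((2 * Q : ℕ) : ℝ) := by exact_mod_cast hq2.le
          simpa using this
        have hyC : 0 ≤ 16 * C * y := by positivity
        have hcard : (((D.filter (· ∣ q)).card : ℕ) : ℝ) ≤ τ := by
          refine le_trans ?_ (hτ q hq)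
          exact_mod_cast Finset.card_le_card hsub
        have hsumd : ∑ d ∈ D.filter (· ∣ q), (d : ℝ) ≤ ∑ d ∈ q.divisors, (d : ℝ) :=
          Finset.sum_le_sum_of_subset_of_nonneg hsub fun _ _ _ => Nat.cast_nonneg _
        have e0 : ∑ d ∈ D.filter (· ∣ q),
              f q ^ 2 * (3 * (Q : ℝ) * min y (1 / (d : ℝ)) + 16 * C * (y * d + E)) =
            f q ^ 2 * (3 * ∑ d ∈ D.filter (· ∣ q), (Q : ℝ) * min y (1 / (d : ℝ))) +
              f q ^ 2 * (((D.filter (· ∣ q)).card : ℝ) * (16 * C * E)) +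
              f q ^ 2 * (16 * C * y * ∑ d ∈ D.filter (· ∣ q), (d : ℝ)) := by
          have e1 : ∀ d ∈ D.filter (· ∣ q),
              f q ^ 2 * (3 * (Q : ℝ) * min y (1 / (d : ℝ)) + 16 * C * (y * d + E)) =
                f q ^ 2 * (3 * ((Q : ℝ) * min y (1 / (d : ℝ)))) + f q ^ 2 * (16 * C * E) +
                  f q ^ 2 * (16 * C * y) * (d : ℝ) := fun d _ => by ring
          have s1 : ∑ d ∈ D.filter (· ∣ q), f q ^ 2 * (3 * ((Q : ℝ) * min y (1 / (d : ℝ)))) =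
              f q ^ 2 * (3 * ∑ d ∈ D.filter (· ∣ q), (Q : ℝ) * min y (1 / (d : ℝ))) := by
            rw [Finset.mul_sum, Finset.mul_sum]
          have s2 : ∑ d ∈ D.filter (· ∣ q), f q ^ 2 * (16 * C * E) =
              f q ^ 2 * (((D.filter (· ∣ q)).card : ℝ) * (16 * C * E)) := by
            rw [Finset.sum_const, nsmul_eq_mul]
            ring
          have s3 : ∑ d ∈ D.filter (· ∣ q), f q ^ 2 * (16 * C * y) * (d : ℝ) =
              f q ^ 2 * (16 * C * y * ∑ d ∈ D.filter (· ∣ q), (d : ℝ)) := by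
            rw [← Finset.mul_sum]
            ring
          rw [Finset.sum_congr rfl e1, Finset.sum_add_distrib, Finset.sum_add_distrib, s1, s2, s3]
        rw [e0]
        have hD1 : f q ^ 2 * (3 * ∑ d ∈ D.filter (· ∣ q), (Q : ℝ) * min y (1 / (d : ℝ)))
            ≤ f q * (3 * DD) := by
          calc _ ≤ f q ^ 2 * (3 * DD) :=
                mul_le_mul_of_nonneg_left (by linarith [hkey q hq]) (by positivity)
            _ ≤ _ := mul_le_mul_of_nonneg_right hff (by positivity)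
        have hCE : 0 ≤ 16 * C * E := by positivity
        have hD2 : f q ^ 2 * (((D.filter (· ∣ q)).card : ℝ) * (16 * C * E))
            ≤ f q * (16 * C * τ * E) := by
          calc _ ≤ f q ^ 2 * (τ * (16 * C * E)) :=
                mul_le_mul_of_nonneg_left (mul_le_mul_of_nonneg_right hcard hCE) (by positivity)
            _ ≤ f q * (τ * (16 * C * E)) := mul_le_mul_of_nonneg_right hff (by positivity)
            _ = _ := by ring
        have hD3 : f q ^ 2 * (16 * C * y * ∑ d ∈ D.filter (· ∣ q), (d : ℝ))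
            ≤ f q * (32 * C * y * Q) := by
          have h1 : f q * ∑ d ∈ D.filter (· ∣ q), (d : ℝ) ≤ 2 * Q :=
            ((mul_le_mul_of_nonneg_left hsumd hf0q).trans (hfσ q hq)).trans hqQ
          have h2 : (16 * C * y) * (f q * ∑ d ∈ D.filter (· ∣ q), (d : ℝ)) ≤ (16 * C * y) * (2 * Q) :=
            mul_le_mul_of_nonneg_left h1 hyC
          calc _ = f q * ((16 * C * y) * (f q * ∑ d ∈ D.filter (· ∣ q), (d : ℝ))) := by ring
            _ ≤ f q * ((16 * C * y) * (2 * Q)) := mul_le_mul_of_nonneg_left h2 hf0q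
            _ = _ := by ring
        calc _ ≤ f q * (3 * DD) + f q * (16 * C * τ * E) + f q * (32 * C * y * Q) :=
              add_le_add (add_le_add hD1 hD2) hD3
          _ = _ := by ring
    _ = (∑ q ∈ S, f q) * (3 * DD + 16 * C * τ * E + 32 * C * y * Q) := by
        rw [Finset.sum_mul]

/-- As `P028H.ls_H`. -/
theorem ls_I (γ K y C e τ DD : ℝ) (Q Z : ℕ) (hQ : 0 < Q) (hZ1 : 1 ≤ Z) (hC : 0 ≤ C) (he : 0 < e)
    (hR : RowBd γ C e) (hnz : ∀ n : ℕ, 0 < n → 0 < nrm ((n : ℝ) * γ))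
    (hK : 0 < K) (hy : 0 < y) (hyK : y ≤ K / Q) (hτ0 : 0 ≤ τ) (hDD : 0 ≤ DD) (hZ : Z ^ 3 ≤ Q) (S : Finset ℕ)
    (hS : ∀ q ∈ S, Q ≤ q ∧ q < 2 * Q) (f : ℕ → ℝ) (hf0 : ∀ q, 0 ≤ f q) (hf1 : ∀ q, f q ≤ 1)
    (hfσ : ∀ q ∈ S, f q * (∑ d ∈ q.divisors, (d : ℝ)) ≤ q)
    (hτ : ∀ q ∈ S, (q.divisors.card : ℝ) ≤ τ)
    (hD : ∀ q ∈ S, dsum q (2 * Q * min y (1 / (Z : ℝ))) ≤ DD) (Λ : Finset ℚ)
    (hΛ : ∀ ρ ∈ Λ, 0 < ρ ∧ (ρ : ℝ) < y) :
    ∑ ρ ∈ Λ, ‖coefW γ K S f ρ‖ ^ 2 ≤ (∑ q ∈ S, f q) *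
      ((3 + 48 * C) * y * Q + 3 * DD + 16 * C * (Z + τ) * (y * Q) ^ e) := by
  classical
  have hA := fam_A_H γ K y C e Q Z hQ hC he hR hnz hK hy hyK hZ S hS f
    (Λ.filter (fun ρ => ρ.den ≤ Z))
    (fun ρ hρ => by
      obtain ⟨h1, h2⟩ := mem_filter.1 hρ
      exact ⟨(hΛ ρ h1).1, (hΛ ρ h1).2, h2⟩)
  have hB' := fam_B_I γ K y C e τ DD Q Z hQ hZ1 hC he hR hnz hK hy hyK hτ0 hDD S hS f hf0 hf1 hfσ hτ hD
    (Λ.filter (fun ρ => ¬ ρ.den ≤ Z))
    (fun ρ hρ => by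
      obtain ⟨h1, h2⟩ := mem_filter.1 hρ
      exact ⟨(hΛ ρ h1).1, (hΛ ρ h1).2, not_le.1 h2⟩)
  rw [← sum_filter_add_sum_filter_not Λ (fun ρ => ρ.den ≤ Z)]
  have hQ' : (0 : ℝ) < Q := by exact_mod_cast hQ
  set E : ℝ := (y * Q) ^ e with hE
  have hE0 : 0 ≤ E := Real.rpow_nonneg (by positivity) _
  have hsq : ∑ q ∈ S, f q ^ 2 ≤ ∑ q ∈ S, f q := Finset.sum_le_sum fun q _ => by
    have h1 := hf0 q
    have h2 := hf1 q
    nlinarith
  have hA0 : 0 ≤ (3 + 16 * C) * y * Q + 16 * C * Z * E := by positivity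
  calc _ ≤ (∑ q ∈ S, f q) * ((3 + 16 * C) * y * Q + 16 * C * Z * E) +
        (∑ q ∈ S, f q) * (3 * DD + 16 * C * τ * E + 32 * C * y * Q) :=
        add_le_add (hA.trans (mul_le_mul_of_nonneg_right hsq hA0)) hB'
    _ = _ := by ring

end Vale.Agent.Lib.P028I
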