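import Vale.Agent.Lib.P028I.Pair
import Vale.Agent.Lib.P028H.Level

/-! The second moment over a chain of levels, with the divisor sum hypothesis. -/

open scoped BigOperators Real
open Finset
open Vale.Agent.Lib.P028G Vale.Agent.Lib.P028H

namespace Vale.Agent.Lib.P028I

/-- A chain of levels. -/
structure LevelDataI (f : ℕ → ℝ) (e C11 C10 : ℝ) (I : Finset ℕ) (Q K Z : ℕ → ℕ) (τ : ℕ → ℝ)
    (S : ℕ → Finset ℕ) : Prop where
  hQ : ∀ r ∈ I, 0 < Q r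
  hK : ∀ r ∈ I, 0 < K r
  hZ1 : ∀ r ∈ I, 1 ≤ Z r
  hZ : ∀ r ∈ I, Z r ^ 3 ≤ Q r
  hS : ∀ r ∈ I, ∀ q ∈ S r, Q r ≤ q ∧ q < 2 * Q r
  hσ : ∀ r ∈ I, ∀ q ∈ S r, f q * (∑ d ∈ q.divisors, (d : ℝ)) ≤ q
  hτ : ∀ r ∈ I, ∀ q ∈ S r, (q.divisors.card : ℝ) ≤ τ r
  hτ1 : ∀ r ∈ I, 1 ≤ τ r
  hD : ∀ r ∈ I, ∀ q ∈ S r, ∀ X : ℝ, 0 ≤ X → X ≤ 2 * min (K r : ℝ) ((Q r : ℝ) / Z r) →
    dsum q X ≤ C11 * Real.sqrt (X * K r)
  hzt : ∀ r ∈ I, (Z r : ℝ) + τ r ≤ C10 * (K r : ℝ) ^ (1 - e)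
  hQmono : ∀ r ∈ I, ∀ s ∈ I, r ≤ s → Q r ≤ Q s
  hKmono : ∀ r ∈ I, ∀ s ∈ I, r ≤ s → K r ≤ K s
  hprod : ∀ r ∈ I, ∀ s ∈ I, r ≤ s → (2 : ℝ) ^ (s - r) * ((Q r : ℝ) * K r) ≤ (Q s : ℝ) * K s

/-- Same proof as `P028H.level_second_w`, with `pair_norm_I`. -/
theorem level_second_I (γ C e C11 C10 : ℝ) (hC : 0 ≤ C) (he : 1 / 2 ≤ e) (he1 : e ≤ 1)
    (hR : RowBd γ C e) (hnz : ∀ n : ℕ, 0 < n → 0 < nrm ((n : ℝ) * γ))
    (hC11 : 0 ≤ C11) (hC10 : 0 ≤ C10) (f : ℕ → ℝ) (hf0 : ∀ q, 0 ≤ f q) (hf1 : ∀ q, f q ≤ 1)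
    (I : Finset ℕ) (Q K Z : ℕ → ℕ) (τ : ℕ → ℝ) (S : ℕ → Finset ℕ)
    (h : LevelDataI f e C11 C10 I Q K Z τ S) :
    ∫ x in (0 : ℝ)..1,
        (∑ r ∈ I, (3 / (K r : ℝ)) * ∑ q ∈ S r, f q * fej (K r) ((q : ℝ) * x - γ)) ^ 2 ≤
      9 * (∑ r ∈ I, (∑ q ∈ S r, f q) / K r) ^ 2 +
        252 * C7I C C11 C10 * ∑ r ∈ I, (∑ q ∈ S r, f q) / K r := by
  classical
  set M : ℕ → ℝ := fun r => (∑ q ∈ S r, f q) / K r with hMdef
  have hM0 : ∀ r, 0 ≤ M r := fun r => by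
    simp only [hMdef]
    exact div_nonneg (sum_nonneg fun q _ => hf0 q) (Nat.cast_nonneg _)
  set F : ℕ → ℝ → ℝ := fun r x => ∑ q ∈ S r, f q * fej (K r) ((q : ℝ) * x - γ) with hF
  have hFc : ∀ r, Continuous (F r) := fun r => by
    simp only [hF]
    exact continuous_finsetSum _ (fun q _ => (fej_continuous_aux _ _ _).const_mul _)
  set w := Real.sqrt (Real.sqrt (1 / 2)) with hw
  have hw0 : 0 ≤ w := Real.sqrt_nonneg _
  have hw1 : w ≤ 17 / 20 := sqrt_sqrt_half_le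
  set c7 := C7I C C11 C10 with hc7
  have hC7 : 0 ≤ c7 := by
    simp only [hc7, C7I]
    have h1 := Real.sqrt_nonneg C11
    have h2 := mul_nonneg hC hC10
    nlinarith
  -- one ordered pair
  have ordered : ∀ r ∈ I, ∀ s ∈ I, r ≤ s →
      (1 / ((K r : ℝ) * K s)) * ∫ x in (0 : ℝ)..1, F r x * F s x ≤
        M r * M s + 2 * c7 * (Real.sqrt (M r * M s) * w ^ (s - r)) := by
    intro r hr s hs hrs
    have hpn := pair_norm_I γ C e C11 C10 (τ r) (τ s) hC he he1 hR hnz hC11 hC10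
      (h.hτ1 r hr) (h.hτ1 s hs)
      (K r) (K s) (Q r) (Q s) (Z r) (Z s) (h.hK r hr) (h.hK s hs) (h.hQ r hr) (h.hQ s hs)
      (h.hZ1 r hr) (h.hZ1 s hs) (h.hZ r hr) (h.hZ s hs) (S r) (S s) (h.hS r hr) (h.hS s hs)
      f hf0 hf1 (h.hσ r hr) (h.hσ s hs) (h.hτ r hr) (h.hτ s hs) (h.hD r hr) (h.hD s hs)
      (h.hzt r hr) (h.hzt s hs)
      (h.hQmono r hr s hs hrs) (h.hKmono r hr s hs hrs)
    have hQs : (0 : ℝ) < Q s := by exact_mod_cast h.hQ s hs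
    have hKs : (0 : ℝ) < K s := by exact_mod_cast h.hK s hs
    have ha0 : 0 ≤ ((Q r : ℝ) / Q s) * ((K r : ℝ) / K s) := by positivity
    have ha1 : (2 : ℝ) ^ (s - r) * (((Q r : ℝ) / Q s) * ((K r : ℝ) / K s)) ≤ 1 := by
      have hp := h.hprod r hr s hs hrs
      have : (2 : ℝ) ^ (s - r) * (((Q r : ℝ) / Q s) * ((K r : ℝ) / K s)) =
          ((2 : ℝ) ^ (s - r) * ((Q r : ℝ) * K r)) / ((Q s : ℝ) * K s) := by
        field_simp
      rw [this, div_le_one (by positivity)]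
      exact hp
    have hsq := sqrt_sqrt_le _ ha0 (s - r) ha1
    have hC7' : 0 ≤ 2 * c7 * Real.sqrt (M r * M s) := by positivity
    calc (1 / ((K r : ℝ) * K s)) * ∫ x in (0 : ℝ)..1, F r x * F s x
        ≤ _ := hpn
      _ ≤ M r * M s + 2 * c7 * (Real.sqrt (M r * M s) * w ^ (s - r)) := by
        have := mul_le_mul_of_nonneg_left hsq hC7'
        simp only [hMdef, hc7] at *
        nlinarith [this]
  have key : ∀ r ∈ I, ∀ s ∈ I,
      (1 / ((K r : ℝ) * K s)) * ∫ x in (0 : ℝ)..1, F r x * F s x ≤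
        M r * M s + 2 * c7 * (Real.sqrt (M r * M s) * w ^ (r - s + (s - r))) := by
    intro r hr s hs
    rcases le_total r s with hrs | hsr
    · have := ordered r hr s hs hrs
      rw [show r - s + (s - r) = s - r by omega]
      exact this
    · have := ordered s hs r hr hsr
      rw [show r - s + (s - r) = r - s by omega]
      have e1 : (1 / ((K r : ℝ) * K s)) * ∫ x in (0 : ℝ)..1, F r x * F s x =
          (1 / ((K s : ℝ) * K r)) * ∫ x in (0 : ℝ)..1, F s x * F r x := by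
        rw [mul_comm (K r : ℝ) (K s : ℝ)]
        congr 1
        apply intervalIntegral.integral_congr
        intro x _
        simp only [mul_comm]
      rw [e1, mul_comm (M r) (M s)]
      exact this
  -- expansion
  have expand : ∫ x in (0 : ℝ)..1, (∑ r ∈ I, (3 / (K r : ℝ)) * F r x) ^ 2 =
      ∑ r ∈ I, ∑ s ∈ I, 9 * ((1 / ((K r : ℝ) * K s)) * ∫ x in (0 : ℝ)..1, F r x * F s x) := by
    have e : ∀ x : ℝ, (∑ r ∈ I, (3 / (K r : ℝ)) * F r x) ^ 2 =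
        ∑ r ∈ I, ∑ s ∈ I, 9 * ((1 / ((K r : ℝ) * K s)) * (F r x * F s x)) := by
      intro x
      rw [sq, Finset.sum_mul_sum]
      refine Finset.sum_congr rfl (fun r _ => Finset.sum_congr rfl (fun s _ => ?_))
      have : (3 / (K r : ℝ)) * (3 / (K s : ℝ)) = 9 * (1 / ((K r : ℝ) * K s)) := by
        rw [div_mul_div_comm]
        ring
      calc (3 / (K r : ℝ)) * F r x * ((3 / (K s : ℝ)) * F s x)
          = ((3 / (K r : ℝ)) * (3 / (K s : ℝ))) * (F r x * F s x) := by ring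
        _ = _ := by rw [this]; ring
    simp_rw [e]
    rw [intervalIntegral.integral_finsetSum]
    · refine Finset.sum_congr rfl (fun r _ => ?_)
      rw [intervalIntegral.integral_finsetSum]
      · refine Finset.sum_congr rfl (fun s _ => ?_)
        rw [intervalIntegral.integral_const_mul, intervalIntegral.integral_const_mul]
      · intro s _
        exact (((hFc r).mul (hFc s)).const_mul _ |>.const_mul _).intervalIntegrable _ _
    · intro r _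
      refine (Continuous.intervalIntegrable ?_ _ _)
      refine continuous_finsetSum _ (fun s _ => ?_)
      exact (((hFc r).mul (hFc s)).const_mul _ |>.const_mul _)
  have hS := schur_geom I M hM0 w hw0 hw1
  have goal' : ∫ x in (0 : ℝ)..1, (∑ r ∈ I, (3 / (K r : ℝ)) * F r x) ^ 2 ≤
      9 * (∑ r ∈ I, M r) ^ 2 + 252 * c7 * ∑ r ∈ I, M r := by
    rw [expand]
    calc ∑ r ∈ I, ∑ s ∈ I, 9 * ((1 / ((K r : ℝ) * K s)) * ∫ x in (0 : ℝ)..1, F r x * F s x)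
        ≤ ∑ r ∈ I, ∑ s ∈ I, 9 * (M r * M s + 2 * c7 *
            (Real.sqrt (M r * M s) * w ^ (r - s + (s - r)))) := by
          refine Finset.sum_le_sum (fun r hr => Finset.sum_le_sum (fun s hs => ?_))
          exact mul_le_mul_of_nonneg_left (key r hr s hs) (by norm_num)
      _ = 9 * (∑ r ∈ I, M r) ^ 2 + 18 * c7 * ∑ r ∈ I, ∑ s ∈ I,
            Real.sqrt (M r * M s) * w ^ (r - s + (s - r)) := by
          rw [sq, Finset.sum_mul_sum, Finset.mul_sum, Finset.mul_sum, ← Finset.sum_add_distrib]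
          refine Finset.sum_congr rfl (fun r _ => ?_)
          rw [Finset.mul_sum, Finset.mul_sum, ← Finset.sum_add_distrib]
          refine Finset.sum_congr rfl (fun s _ => ?_)
          ring
      _ ≤ 9 * (∑ r ∈ I, M r) ^ 2 + 18 * c7 * (14 * ∑ r ∈ I, M r) := by
          have := mul_le_mul_of_nonneg_left hS (by positivity : 0 ≤ 18 * c7)
          linarith
      _ = _ := by ring
  exact goal'

end Vale.Agent.Lib.P028I
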