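import Vale.Agent.Lib.P028I.Build
import Vale.Agent.Lib.P028H.Union


/-! The main theorems with the divisor sum hypothesis. -/

open scoped BigOperators Real
open Finset MeasureTheory Filter Set
open Vale.Agent.Lib.P028 Vale.Agent.Lib.P028E Vale.Agent.Lib.P028G Vale.Agent.Lib.P028H

namespace Vale.Agent.Lib.P028I

/-- The cell lower bound, as in `P028H.main_chain`, with `ψ q ≤ 1 / 9` given. -/
private theorem cell_chain_I (γ : ℝ) (ψ : ℕ → ℝ) (hle : ∀ q, 0 < ψ q → ψ q ≤ 1 / 9)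
    (N : ℕ) (hN : 0 < N) :
    ∃ q₁ : ℕ, ∀ q, q₁ ≤ q → 0 < ψ q → ∀ n : ℕ, n < N →
      1 / (N : ℝ) * ψ q ≤
        (volume (arcSet q γ (ψ q) ∩ Ioc ((n : ℝ) / N) (((n : ℝ) + 1) / N))).toReal := by
  refine ⟨max 27 (6 * N), fun q hq hψ n _ => ?_⟩
  have hq27 : 27 ≤ q := le_trans (le_max_left _ _) hq
  have hq6 : 6 * N ≤ q := le_trans (le_max_right _ _) hq
  have hqpos : 0 < q := by omega
  have hq' : (0 : ℝ) < q := by exact_mod_cast hqpos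
  have hN' : (0 : ℝ) < N := by exact_mod_cast hN
  have hq6' : 6 * (N : ℝ) ≤ q := by exact_mod_cast hq6
  have hψ1 : ψ q ≤ 1 / 2 := by
    have h1 := hle q hψ
    linarith
  have huv : (n : ℝ) / N ≤ ((n : ℝ) + 1) / N := by
    apply div_le_div_of_nonneg_right _ hN'.le
    linarith
  have h := cell_lower q hqpos γ (ψ q) hψ hψ1 Set.univ 1 0 (by norm_num)
    (fun X H => by
      have e : ∀ (s : Finset ℤ) (d : DecidablePred (· ∈ (Set.univ : Set ℤ))),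
          (@Finset.filter _ _ d s) = s := fun s d => by ext a; simp
      rw [e, Int.card_Ico]
      simp) _ _ huv
  have hset : thinSet q γ (ψ q) Set.univ = arcSet q γ (ψ q) := by
    ext x
    simp [thinSet, arcSet]
  rw [hset] at h
  refine le_trans ?_ h
  have e1 : ((n : ℝ) + 1) / N - (n : ℝ) / N = 1 / N := by ring
  rw [e1]
  have h6 : 6 ≤ (q : ℝ) / N := by
    rw [le_div_iff₀ hN']; linarith
  have e2 : 2 * (ψ q / q) * (1 * ((q : ℝ) * (1 / N) - 3) - 0) =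
      2 * ψ q * (1 / N) - 6 * (ψ q / q) := by
    field_simp
    ring
  rw [e2]
  have h7 : 6 * (ψ q / q) ≤ 1 / (N : ℝ) * ψ q := by
    have h8 : ψ q / q = (1 / (N : ℝ)) * ψ q * ((N : ℝ) / q) := by
      field_simp
    rw [h8]
    have h9 : (N : ℝ) / q ≤ 1 / 6 := by
      rw [div_le_iff₀ hq']; linarith
    have h10 : 0 ≤ 1 / (N : ℝ) * ψ q := by positivity
    nlinarith
  have e3 : 2 * ψ q * (1 / (N : ℝ)) = 2 * (1 / (N : ℝ) * ψ q) := by ring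
  rw [e3]
  linarith

/-- As `P028H.main_chain`, with `exists_levels_I`, `level_second_I`, `ovl_le_levels_w`, `ae_of_blocks_w`; `hcell` from `hle`
(as in `P028H.main_chain`; here `ψ q ≤ 1/9 ≤ 1/2`). `h1` also from `hle`. -/
theorem main_chain_I (γ C e A C11 : ℝ) (hC : 0 ≤ C) (he : 1 / 2 ≤ e) (he1 : e < 1) (hA : 1 ≤ A)
    (hC11 : 0 ≤ C11) (hR : RowBd γ C e)
    (hnz : ∀ n : ℕ, 0 < n → 0 < Vale.Agent.Lib.P028G.nrm ((n : ℝ) * γ)) (ψ : ℕ → ℝ) (h0 : ∀ q, 0 ≤ ψ q)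
    (hchain : ∀ q r, 0 < ψ q → 0 < ψ r → Nat.log 2 q < Nat.log 2 r → ψ r ≤ ψ q)
    (hle : ∀ q, 0 < ψ q → ψ q ≤ 1 / 9)
    (hτ : ∀ q, 0 < ψ q → (q.divisors.card : ℝ) ^ (1 / (1 - e)) * ψ q ≤ 1)
    (hdsum : ∀ q, 0 < ψ q → ∀ X : ℝ, 0 ≤ X → X ≤ min (A / ψ q) (8 * (q : ℝ) ^ (1 / (2 - e))) →
      dsum q X ≤ C11 * Real.sqrt (X / ψ q))
    (hdiv : ¬ Summable (fun q => wq q * ψ q)) :
    ∀ᵐ x : ℝ, ∃ᶠ q : ℕ in atTop, ∃ a : ℤ, |(q : ℝ) * x - a - γ| < ψ q := by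
  have h1 : ∀ q : ℕ, 1 ≤ q → ψ q ≤ 1 := by
    intro q _
    rcases (h0 q).eq_or_lt with h | h
    · rw [← h]; norm_num
    · have := hle q h
      linarith
  have hC7 : 0 ≤ C7I C (4 * C11) 5 := by
    unfold C7I
    positivity
  refine ae_of_blocks_w γ ψ wq h0 h1 wq_nonneg wq_le_one hdiv (fun q => arcSet q γ (ψ q))
    (fun q => isOpen_arcSet q γ (ψ q)) (fun q => Set.Subset.rfl) 1
    (9 * 32 ^ 2 + 252 * C7I C (4 * C11) 5 * 32) one_pos (by positivity)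
    (fun N hN => cell_chain_I γ ψ hle N hN) ⟨1, fun B hB1 _ hB3 => ?_⟩
  obtain ⟨I, Q, K, Z, τ, S, hL, hdisj, hmaj, hmass⟩ :=
    exists_levels_I ψ wq wq_nonneg e A C11 he he1 hA hC11 (fun q _ => wq_mul_sigma q) hchain hle hτ
      hdsum B hB1
  have h2 := ovl_le_levels_w γ ψ wq wq_nonneg B I K S hL.hK hdisj hmaj
  have h3 := level_second_I γ C e (4 * C11) 5 hC he he1.le hR hnz (by positivity) (by norm_num) wq
    wq_nonneg wq_le_one I Q K Z τ S hL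
  set M : ℝ := ∑ r ∈ I, (∑ q ∈ S r, wq q) / K r with hM
  have hM0 : 0 ≤ M := by
    apply Finset.sum_nonneg
    intro r _
    have : 0 ≤ ∑ q ∈ S r, wq q := Finset.sum_nonneg fun q _ => wq_nonneg q
    positivity
  have hM32 : M ≤ 32 := by linarith
  have h4 : M ^ 2 ≤ 32 ^ 2 := pow_le_pow_left₀ hM0 hM32 2
  have h5 : 252 * C7I C (4 * C11) 5 * M ≤ 252 * C7I C (4 * C11) 5 * 32 :=
    mul_le_mul_of_nonneg_left hM32 (by positivity)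
  linarith

/-- As `P028H.main_parity` (split by the parity of `Nat.log 2 q`). -/
theorem main_parity_I (γ C e A C11 : ℝ) (hC : 0 ≤ C) (he : 1 / 2 ≤ e) (he1 : e < 1) (hA : 1 ≤ A)
    (hC11 : 0 ≤ C11) (hR : RowBd γ C e)
    (hnz : ∀ n : ℕ, 0 < n → 0 < Vale.Agent.Lib.P028G.nrm ((n : ℝ) * γ)) (ψ : ℕ → ℝ) (h0 : ∀ q, 0 ≤ ψ q)
    (hmono : ∀ q r, 0 < ψ q → 0 < ψ r → 2 * q ≤ r → ψ r ≤ ψ q)
    (hle : ∀ q, 0 < ψ q → ψ q ≤ 1 / 9)
    (hτ : ∀ q, 0 < ψ q → (q.divisors.card : ℝ) ^ (1 / (1 - e)) * ψ q ≤ 1)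
    (hdsum : ∀ q, 0 < ψ q → ∀ X : ℝ, 0 ≤ X → X ≤ min (A / ψ q) (8 * (q : ℝ) ^ (1 / (2 - e))) →
      dsum q X ≤ C11 * Real.sqrt (X / ψ q))
    (hdiv : ¬ Summable (fun q => wq q * ψ q)) :
    ∀ᵐ x : ℝ, ∃ᶠ q : ℕ in atTop, ∃ a : ℤ, |(q : ℝ) * x - a - γ| < ψ q := by
  classical
  -- the part of `ψ` on one parity class of the dyadic exponent
  have key : ∀ b : Bool, ¬ Summable (fun q => wq q * (if (Nat.log 2 q % 2 == 1) = b then ψ q else 0)) →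
      ∀ᵐ x : ℝ, ∃ᶠ q : ℕ in atTop, ∃ a : ℤ, |(q : ℝ) * x - a - γ| < ψ q := by
    intro b hb
    set ψ' : ℕ → ℝ := fun q => if (Nat.log 2 q % 2 == 1) = b then ψ q else 0 with hψ'
    have hle' : ∀ q, ψ' q ≤ ψ q := fun q => by
      simp only [hψ']; split_ifs
      · exact le_rfl
      · exact h0 q
    have h0' : ∀ q, 0 ≤ ψ' q := fun q => by
      simp only [hψ']; split_ifs
      · exact h0 q
      · exact le_rfl
    have hsupp : ∀ q, 0 < ψ' q → (Nat.log 2 q % 2 == 1) = b ∧ ψ' q = ψ q := fun q hq => by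
      by_cases h : (Nat.log 2 q % 2 == 1) = b
      · exact ⟨h, by simp only [hψ']; rw [if_pos h]⟩
      · simp only [hψ'] at hq; rw [if_neg h] at hq; exact absurd hq (lt_irrefl _)
    refine Vale.Agent.Lib.P028E.ae_mono hle' (main_chain_I γ C e A C11 hC he he1 hA hC11 hR hnz ψ' h0' ?_ ?_ ?_ ?_ hb)
    · intro q r hq hr hlog
      obtain ⟨hq1, hq2⟩ := hsupp q hq
      obtain ⟨hr1, hr2⟩ := hsupp r hr
      rw [hq2, hr2]
      have hqpos : 0 < ψ q := hq2 ▸ hq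
      have hrpos : 0 < ψ r := hr2 ▸ hr
      apply hmono q r hqpos hrpos
      have hpar : Nat.log 2 q % 2 = Nat.log 2 r % 2 := by
        have h1 : (Nat.log 2 q % 2 == 1) = (Nat.log 2 r % 2 == 1) := by rw [hq1, hr1]
        by_cases hx : Nat.log 2 q % 2 = 1
        · have : (Nat.log 2 r % 2 == 1) = true := by rw [← h1]; simp [hx]
          have h3 : Nat.log 2 r % 2 = 1 := by simpa using this
          omega
        · have : (Nat.log 2 r % 2 == 1) = false := by rw [← h1]; simp [hx]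
          have h3 : ¬ Nat.log 2 r % 2 = 1 := by simpa using this
          omega
      have hlog2 : Nat.log 2 q + 2 ≤ Nat.log 2 r := by omega
      have hr0 : r ≠ 0 := by
        rintro rfl
        simp at hlog
      have h2 : 2 ^ Nat.log 2 r ≤ r := Nat.pow_log_le_self 2 hr0
      have h3 : q < 2 ^ (Nat.log 2 q + 1) := Nat.lt_pow_succ_log_self (by norm_num) q
      have h4 : 2 ^ (Nat.log 2 q + 2) ≤ 2 ^ Nat.log 2 r :=
        Nat.pow_le_pow_right (by norm_num) hlog2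
      have h5 : 2 ^ (Nat.log 2 q + 2) = 2 * 2 ^ (Nat.log 2 q + 1) := by ring
      omega
    · intro q hq
      obtain ⟨_, hq2⟩ := hsupp q hq
      rw [hq2]
      exact hle q (hq2 ▸ hq)
    · intro q hq
      obtain ⟨_, hq2⟩ := hsupp q hq
      rw [hq2]
      exact hτ q (hq2 ▸ hq)
    · intro q hq X hX0 hX
      obtain ⟨_, hq2⟩ := hsupp q hq
      rw [hq2] at hX ⊢
      exact hdsum q (hq2 ▸ hq) X hX0 hX
  by_cases h1 : Summable (fun q => wq q * (if (Nat.log 2 q % 2 == 1) = true then ψ q else 0))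
  · by_cases h2 : Summable (fun q => wq q * (if (Nat.log 2 q % 2 == 1) = false then ψ q else 0))
    · exfalso
      apply hdiv
      refine (h1.add h2).congr (fun q => ?_)
      by_cases h : (Nat.log 2 q % 2 == 1) = true
      · have h' : ¬ (Nat.log 2 q % 2 == 1) = false := by simp [h]
        rw [if_pos h, if_neg h']; ring
      · have h' : (Nat.log 2 q % 2 == 1) = false := by simpa using h
        rw [if_neg h, if_pos h']; ring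
    · exact key false h2
  · exact key true h1

/-- As `P028H.main_general`: the same `ψ₂` with `ψ / A ≤ ψ₂ ≤ ψ`. The hypotheses pass to `ψ₂`, but applied with `A₂ = 1`:
`hle`, `hτ` because `ψ₂ ≤ ψ`; `hdsum` for `ψ₂` with `A₂ = 1`: if `X ≤ 1/ψ₂ q ≤ A/ψ q` then `dsum q X ≤ C11 √(X/ψ q) ≤ C11 √(X/ψ₂ q)`. -/
theorem main_general_I (γ C e A C11 : ℝ) (hC : 0 ≤ C) (he : 1 / 2 ≤ e) (he1 : e < 1) (hA : 1 ≤ A)
    (hC11 : 0 ≤ C11) (hR : RowBd γ C e)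
    (hnz : ∀ n : ℕ, 0 < n → 0 < Vale.Agent.Lib.P028G.nrm ((n : ℝ) * γ)) (ψ : ℕ → ℝ) (h0 : ∀ q, 0 ≤ ψ q)
    (q₀ : ℕ) (hmono : ∀ q r, q₀ ≤ q → 0 < ψ q → 0 < ψ r → 2 * q ≤ r → ψ r ≤ A * ψ q)
    (hle : ∀ q, q₀ ≤ q → 0 < ψ q → ψ q ≤ 1 / 9)
    (hτ : ∀ q, q₀ ≤ q → 0 < ψ q → (q.divisors.card : ℝ) ^ (1 / (1 - e)) * ψ q ≤ 1)
    (hdsum : ∀ q, q₀ ≤ q → 0 < ψ q → ∀ X : ℝ, 0 ≤ X → X ≤ min (A / ψ q) (8 * (q : ℝ) ^ (1 / (2 - e))) →
      dsum q X ≤ C11 * Real.sqrt (X / ψ q))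
    (hdiv : ¬ Summable (fun q => wq q * ψ q)) :
    ∀ᵐ x : ℝ, ∃ᶠ q : ℕ in atTop, ∃ a : ℤ, |(q : ℝ) * x - a - γ| < ψ q := by
  classical
  obtain ⟨ψ₁, h10, h1le, h1supp, hdiv1⟩ : ∃ ψ₁ : ℕ → ℝ, (∀ q, 0 ≤ ψ₁ q) ∧ (∀ q, ψ₁ q ≤ ψ q) ∧
      (∀ q, 0 < ψ₁ q → q₀ ≤ q ∧ ψ₁ q = ψ q) ∧ ¬ Summable (fun q => wq q * ψ₁ q) := by
    refine ⟨fun q => if q₀ ≤ q then ψ q else 0, fun q => ?_, fun q => ?_, fun q hq => ?_, fun hs => ?_⟩
    · show 0 ≤ if q₀ ≤ q then ψ q else 0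
      split_ifs
      · exact h0 q
      · exact le_rfl
    · show (if q₀ ≤ q then ψ q else 0) ≤ ψ q
      split_ifs
      · exact le_rfl
      · exact h0 q
    · by_cases h : q₀ ≤ q
      · exact ⟨h, if_pos h⟩
      · have : (if q₀ ≤ q then ψ q else 0) = 0 := if_neg h
        simp only at hq
        rw [this] at hq
        exact absurd hq (lt_irrefl _)
    · apply hdiv
      have hfin : Summable (fun q => wq q * ψ q - wq q * (if q₀ ≤ q then ψ q else 0)) := by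
        apply summable_of_ne_finset_zero (s := Finset.range q₀)
        intro q hq
        have hq' : q₀ ≤ q := by simpa using hq
        rw [if_pos hq']
        ring
      refine (hs.add hfin).congr (fun q => ?_)
      ring
  obtain ⟨ψ₂, h20, h2le1, h2ge, hmono2⟩ := exists_running_min ψ₁ h10 A hA (by
    intro p r hp hr hpr
    obtain ⟨hp1, hp2⟩ := h1supp p hp
    obtain ⟨-, hr2⟩ := h1supp r hr
    rw [hp2, hr2]
    exact hmono p r hp1 (hp2 ▸ hp) (hr2 ▸ hr) hpr)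
  have hsupp2 : ∀ q, 0 < ψ₂ q → q₀ ≤ q ∧ 0 < ψ q ∧ ψ₂ q ≤ ψ q ∧ ψ q ≤ A * ψ₂ q := by
    intro q hq
    have hq1 : 0 < ψ₁ q := lt_of_lt_of_le hq (h2le1 q)
    obtain ⟨hq2, hq3⟩ := h1supp q hq1
    refine ⟨hq2, hq3 ▸ hq1, le_trans (h2le1 q) (h1le q), ?_⟩
    have := h2ge q
    rwa [hq3] at this
  have hle2 : ∀ q, 0 < ψ₂ q → ψ₂ q ≤ 1 / 9 := by
    intro q hq
    obtain ⟨hq2, hψq, h1, -⟩ := hsupp2 q hq
    exact h1.trans (hle q hq2 hψq)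
  have hτ2 : ∀ q, 0 < ψ₂ q → (q.divisors.card : ℝ) ^ (1 / (1 - e)) * ψ₂ q ≤ 1 := by
    intro q hq
    obtain ⟨hq2, hψq, h1, -⟩ := hsupp2 q hq
    refine le_trans ?_ (hτ q hq2 hψq)
    have ha : (0 : ℝ) ≤ (q.divisors.card : ℝ) ^ (1 / (1 - e)) := by positivity
    exact mul_le_mul_of_nonneg_left h1 ha
  have hdsum2 : ∀ q, 0 < ψ₂ q → ∀ X : ℝ, 0 ≤ X →
      X ≤ min (1 / ψ₂ q) (8 * (q : ℝ) ^ (1 / (2 - e))) →
      dsum q X ≤ C11 * Real.sqrt (X / ψ₂ q) := by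
    intro q hq X hX0 hX
    obtain ⟨hq2, hψq, h1, h2⟩ := hsupp2 q hq
    have hX1 : X ≤ 1 / ψ₂ q := hX.trans (min_le_left _ _)
    have hX2 : X ≤ 8 * (q : ℝ) ^ (1 / (2 - e)) := hX.trans (min_le_right _ _)
    have hinv : 1 / ψ₂ q ≤ A / ψ q := by
      rw [div_le_div_iff₀ hq hψq]
      linarith
    have hmin : X ≤ min (A / ψ q) (8 * (q : ℝ) ^ (1 / (2 - e))) := le_min (hX1.trans hinv) hX2
    refine (hdsum q hq2 hψq X hX0 hmin).trans ?_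
    refine mul_le_mul_of_nonneg_left (Real.sqrt_le_sqrt ?_) hC11
    exact div_le_div_of_nonneg_left hX0 hq h1
  have hdiv2 : ¬ Summable (fun q => wq q * ψ₂ q) := by
    intro hs
    apply hdiv1
    refine Summable.of_nonneg_of_le (fun q => mul_nonneg (wq_nonneg q) (h10 q)) (fun q => ?_)
      (hs.mul_left A)
    have := mul_le_mul_of_nonneg_left (h2ge q) (wq_nonneg q)
    calc wq q * ψ₁ q ≤ wq q * (A * ψ₂ q) := this
      _ = A * (wq q * ψ₂ q) := by ring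
  exact Vale.Agent.Lib.P028E.ae_mono (fun q => le_trans (h2le1 q) (h1le q))
    (main_parity_I γ C e 1 C11 hC he he1 le_rfl hC11 hR hnz ψ₂ h20 hmono2 hle2 hτ2 hdsum2 hdiv2)

/-- `main_general_I` with `row_bd`, `e = w²/(1+w²)`, `1/(1-e) = 1+w²`, `1/(2-e) = (1+w²)/(2+w²)`; `φ` via `totient_le_wq`. -/
theorem final_I (γ κ w A C11 : ℝ) (hκ : 0 < κ) (hw : 1 ≤ w) (hA : 1 ≤ A) (hC11 : 0 ≤ C11)
    (hdio : ∀ n : ℕ, 0 < n → ∀ a : ℤ, κ / (n : ℝ) ^ w ≤ |(n : ℝ) * γ - a|)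
    (ψ : ℕ → ℝ) (h0 : ∀ q, 0 ≤ ψ q) (q₀ : ℕ)
    (hmono : ∀ q r, q₀ ≤ q → 0 < ψ q → 0 < ψ r → 2 * q ≤ r → ψ r ≤ A * ψ q)
    (hle : ∀ q, q₀ ≤ q → 0 < ψ q → ψ q ≤ 1 / 9)
    (hτ : ∀ q, q₀ ≤ q → 0 < ψ q → (q.divisors.card : ℝ) ^ (1 + w ^ 2) * ψ q ≤ 1)
    (hdsum : ∀ q, q₀ ≤ q → 0 < ψ q → ∀ X : ℝ, 0 ≤ X →
      X ≤ min (A / ψ q) (8 * (q : ℝ) ^ ((1 + w ^ 2) / (2 + w ^ 2))) →
      ∑ t ∈ q.divisors.filter (fun t : ℕ => (t : ℝ) < X), (t : ℝ) ≤ C11 * Real.sqrt (X / ψ q))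
    (hdiv : ¬ Summable (fun q : ℕ => (Nat.totient q : ℝ) / q * ψ q)) :
    ∀ᵐ x : ℝ, ∃ᶠ q : ℕ in atTop, ∃ a : ℤ, |(q : ℝ) * x - a - γ| < ψ q := by
  have hD : Dio γ κ w := hdio
  have hw2 : (0 : ℝ) < 1 + w ^ 2 := by positivity
  have hw3 : (0 : ℝ) < 2 + w ^ 2 := by positivity
  have he : (1 : ℝ) / 2 ≤ w ^ 2 / (1 + w ^ 2) := by
    rw [div_le_div_iff₀ (by norm_num) hw2]
    nlinarith
  have he1 : w ^ 2 / (1 + w ^ 2) < 1 := by
    rw [div_lt_one hw2]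
    linarith
  have hC : (0 : ℝ) ≤ 24 + 4 / κ + 6 * κ ^ (-(1 / w)) := by
    have : 0 < κ ^ (-(1 / w)) := Real.rpow_pos_of_pos hκ _
    positivity
  have hE1 : 1 / (1 - w ^ 2 / (1 + w ^ 2)) = 1 + w ^ 2 := by
    field_simp
    ring
  have hE2 : 1 / (2 - w ^ 2 / (1 + w ^ 2)) = (1 + w ^ 2) / (2 + w ^ 2) := by
    have : (2 : ℝ) - w ^ 2 / (1 + w ^ 2) = (2 + w ^ 2) / (1 + w ^ 2) := by
      field_simp
      ring
    rw [this, one_div_div]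
  refine main_general_I γ _ _ A C11 hC he he1 hA hC11 (row_bd γ κ w hκ hw hD)
    (fun n hn => hD.nrm_pos hκ n hn) ψ h0 q₀ hmono hle ?_ ?_ ?_
  · intro q hq hq0
    rw [hE1]
    exact hτ q hq hq0
  · intro q hq hq0 X hX hXle
    rw [hE2] at hXle
    exact hdsum q hq hq0 X hX hXle
  · intro hs
    apply hdiv
    refine Summable.of_nonneg_of_le (fun q => ?_) (fun q => ?_) hs
    · exact mul_nonneg (by positivity) (h0 q)
    · exact mul_le_mul_of_nonneg_right (totient_le_wq q) (h0 q)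

/-- The above with only the part of `ψ` above `1/q` constrained: `P028H.split_div`, `P028H.upper`, `AA_erdos_vaaler.result` as in `P028H.Union`. -/
theorem final_I_upper (γ κ w A C11 : ℝ) (hκ : 0 < κ) (hw : 1 ≤ w) (hA : 1 ≤ A) (hC11 : 0 ≤ C11)
    (hdio : ∀ n : ℕ, 0 < n → ∀ a : ℤ, κ / (n : ℝ) ^ w ≤ |(n : ℝ) * γ - a|)
    (ψ : ℕ → ℝ) (h0 : ∀ q, 0 ≤ ψ q) (q₀ : ℕ)
    (hmono : ∀ q r : ℕ, q₀ ≤ q → 1 / (q : ℝ) < ψ q → 1 / (r : ℝ) < ψ r → 2 * q ≤ r → ψ r ≤ A * ψ q)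
    (hle : ∀ q : ℕ, q₀ ≤ q → 1 / (q : ℝ) < ψ q → ψ q ≤ 1 / 9)
    (hτ : ∀ q : ℕ, q₀ ≤ q → 1 / (q : ℝ) < ψ q → (q.divisors.card : ℝ) ^ (1 + w ^ 2) * ψ q ≤ 1)
    (hdsum : ∀ q : ℕ, q₀ ≤ q → 1 / (q : ℝ) < ψ q → ∀ X : ℝ, 0 ≤ X →
      X ≤ min (A / ψ q) (8 * (q : ℝ) ^ ((1 + w ^ 2) / (2 + w ^ 2))) →
      ∑ t ∈ q.divisors.filter (fun t : ℕ => (t : ℝ) < X), (t : ℝ) ≤ C11 * Real.sqrt (X / ψ q))
    (hdiv : ¬ Summable (fun q : ℕ => (Nat.totient q : ℝ) / q * ψ q)) :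
    ∀ᵐ x : ℝ, ∃ᶠ q : ℕ in atTop, ∃ a : ℤ, |(q : ℝ) * x - a - γ| < ψ q := by
  rcases split_div h0 hdiv with h | h
  · exact Vale.Agent.Results.P028.AA_erdos_vaaler.result γ ψ h0 (Or.inl h)
  · have key := final_I γ κ w A C11 hκ hw hA hC11 hdio (upper ψ) (upper_nonneg h0) q₀
      (fun q r hq hq' hr' hqr => by
        obtain ⟨h1, e1⟩ := upper_pos hq'
        obtain ⟨h2, e2⟩ := upper_pos hr'
        rw [e1, e2]
        exact hmono q r hq h1 h2 hqr)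
      (fun q hq hq' => by
        obtain ⟨h1, e1⟩ := upper_pos hq'
        rw [e1]
        exact hle q hq h1)
      (fun q hq hq' => by
        obtain ⟨h1, e1⟩ := upper_pos hq'
        rw [e1]
        exact hτ q hq h1)
      (fun q hq hq' X hX hXle => by
        obtain ⟨h1, e1⟩ := upper_pos hq'
        rw [e1] at hXle ⊢
        exact hdsum q hq h1 X hX hXle) h
    exact Vale.Agent.Lib.P028E.ae_mono (upper_le h0) key

end Vale.Agent.Lib.P028I
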