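import Vale.Agent.Lib.P028I.Fam
import Vale.Agent.Lib.P028H.Pair

/-! The integral of a product of two weighted Fejer sums, with the divisor sum hypothesis. -/

open scoped BigOperators ComplexConjugate Real
open Finset
open Vale.Agent.Lib.P028G Vale.Agent.Lib.P028H

namespace Vale.Agent.Lib.P028I

/-- As `P028H.pair_bound_w` (`int_pair_w`, `regroup_w`, Cauchy-Schwarz), with `ls_I` on each side. -/
theorem pair_bound_I (γ C e τa τb DDa DDb : ℝ) (hC : 0 ≤ C) (he : 0 < e) (hR : RowBd γ C e)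
    (hnz : ∀ n : ℕ, 0 < n → 0 < nrm ((n : ℝ) * γ))
    (hτa : 0 ≤ τa) (hτb : 0 ≤ τb) (hDDa : 0 ≤ DDa) (hDDb : 0 ≤ DDb) (Ka Kb Qa Qb Za Zb : ℕ) (hKa : 0 < Ka)
    (hKb : 0 < Kb) (hQa : 0 < Qa) (hQb : 0 < Qb) (hZa1 : 1 ≤ Za) (hZb1 : 1 ≤ Zb) (hZa : Za ^ 3 ≤ Qa)
    (hZb : Zb ^ 3 ≤ Qb) (Sa Sb : Finset ℕ)
    (hSa : ∀ q ∈ Sa, Qa ≤ q ∧ q < 2 * Qa) (hSb : ∀ r ∈ Sb, Qb ≤ r ∧ r < 2 * Qb)
    (f : ℕ → ℝ) (hf0 : ∀ q, 0 ≤ f q) (hf1 : ∀ q, f q ≤ 1)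
    (hσa : ∀ q ∈ Sa, f q * (∑ d ∈ q.divisors, (d : ℝ)) ≤ q)
    (hσb : ∀ r ∈ Sb, f r * (∑ d ∈ r.divisors, (d : ℝ)) ≤ r)
    (hτa' : ∀ q ∈ Sa, (q.divisors.card : ℝ) ≤ τa) (hτb' : ∀ r ∈ Sb, (r.divisors.card : ℝ) ≤ τb)
    (y Ra Rb : ℝ) (hy : y = min ((Kb : ℝ) / Qa) ((Ka : ℝ) / Qb))
    (hDa : ∀ q ∈ Sa, dsum q (2 * Qa * min y (1 / (Za : ℝ))) ≤ DDa)
    (hDb : ∀ r ∈ Sb, dsum r (2 * Qb * min y (1 / (Zb : ℝ))) ≤ DDb)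
    (hRa : Ra = (3 + 48 * C) * y * Qa + 3 * DDa + 16 * C * (Za + τa) * (y * Qa) ^ e)
    (hRb : Rb = (3 + 48 * C) * y * Qb + 3 * DDb + 16 * C * (Zb + τb) * (y * Qb) ^ e) :
    ∫ x in (0 : ℝ)..1, (∑ q ∈ Sa, f q * fej Ka ((q : ℝ) * x - γ)) *
        (∑ r ∈ Sb, f r * fej Kb ((r : ℝ) * x - γ)) ≤
      (∑ q ∈ Sa, f q) * (∑ r ∈ Sb, f r) +
        2 * (Real.sqrt ((∑ q ∈ Sa, f q) * Ra) * Real.sqrt ((∑ r ∈ Sb, f r) * Rb)) := by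
  have hKa' : (0 : ℝ) < Ka := by exact_mod_cast hKa
  have hKb' : (0 : ℝ) < Kb := by exact_mod_cast hKb
  have hQa' : (0 : ℝ) < Qa := by exact_mod_cast hQa
  have hQb' : (0 : ℝ) < Qb := by exact_mod_cast hQb
  have hy0 : 0 < y := by
    rw [hy]
    exact lt_min (div_pos hKb' hQa') (div_pos hKa' hQb')
  have hy1 : y ≤ (Kb : ℝ) / Qa := by
    rw [hy]
    exact min_le_left _ _
  have hy2 : y ≤ (Ka : ℝ) / Qb := by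
    rw [hy]
    exact min_le_right _ _
  obtain ⟨Λ, hΛ, hreg⟩ := regroup_w γ Ka Kb Qa Qb hKa hKb hQa hQb Sa Sb
    (fun q hq => (hSa q hq).1) (fun r hr => (hSb r hr).1) f
  rw [int_pair_w γ Ka Kb Sa Sb (fun q hq => lt_of_lt_of_le hQa (hSa q hq).1)
    (fun r hr => lt_of_lt_of_le hQb (hSb r hr).1) f, hreg]
  have hΛ' : ∀ ρ ∈ Λ, 0 < ρ ∧ (ρ : ℝ) < y := by
    intro ρ hρ
    rw [hy]
    exact hΛ ρ hρ
  have hlsa := ls_I γ (Kb : ℝ) y C e τa DDa Qa Za hQa hZa1 hC he hR hnz hKb' hy0 hy1 hτa hDDa hZa Sa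
    hSa f hf0 hf1 hσa hτa' hDa Λ hΛ'
  have hlsb := ls_I γ (Ka : ℝ) y C e τb DDb Qb Zb hQb hZb1 hC he hR hnz hKa' hy0 hy2 hτb hDDb hZb Sb
    hSb f hf0 hf1 hσb hτb' hDb Λ hΛ'
  rw [← hRa] at hlsa
  rw [← hRb] at hlsb
  have hcs : ∑ ρ ∈ Λ, (coefW γ Kb Sa f ρ * conj (coefW γ Ka Sb f ρ)).re ≤
      Real.sqrt ((∑ q ∈ Sa, f q) * Ra) * Real.sqrt ((∑ r ∈ Sb, f r) * Rb) := by
    calc ∑ ρ ∈ Λ, (coefW γ Kb Sa f ρ * conj (coefW γ Ka Sb f ρ)).re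
        ≤ ∑ ρ ∈ Λ, ‖coefW γ Kb Sa f ρ‖ * ‖coefW γ Ka Sb f ρ‖ := by
          refine Finset.sum_le_sum fun ρ _ => ?_
          calc (coefW γ Kb Sa f ρ * conj (coefW γ Ka Sb f ρ)).re
              ≤ ‖coefW γ Kb Sa f ρ * conj (coefW γ Ka Sb f ρ)‖ := Complex.re_le_norm _
            _ = ‖coefW γ Kb Sa f ρ‖ * ‖coefW γ Ka Sb f ρ‖ := by
                rw [norm_mul, Complex.norm_conj]
      _ ≤ Real.sqrt (∑ ρ ∈ Λ, ‖coefW γ Kb Sa f ρ‖ ^ 2) *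
            Real.sqrt (∑ ρ ∈ Λ, ‖coefW γ Ka Sb f ρ‖ ^ 2) :=
          Real.sum_mul_le_sqrt_mul_sqrt _ _ _
      _ ≤ _ := mul_le_mul (Real.sqrt_le_sqrt hlsa) (Real.sqrt_le_sqrt hlsb) (Real.sqrt_nonneg _)
          (Real.sqrt_nonneg _)
  linarith

/-- The constant of the large sieve bound. -/
noncomputable def C7I (C C11 C10 : ℝ) : ℝ := (3 + 48 * C) + 3 * (2 * C11) + 16 * C * C10

/-- The bound for `R / K` with the divisor sum term. -/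
theorem R_div_le_I (C C11 C10 e τ K Q Z y : ℝ) (hC : 0 ≤ C) (hC11 : 0 ≤ C11) (hC10 : 0 ≤ C10)
    (he : 1 / 2 ≤ e) (hτ : 0 ≤ τ)
    (hK : 0 < K) (hQ : 0 < Q) (hZ : 0 < Z) (hy : 0 < y) (hA : y * Q / K ≤ 1)
    (hz : Z + τ ≤ C10 * K ^ (1 - e)) :
    ((3 + 48 * C) * y * Q + 3 * (C11 * Real.sqrt ((2 * Q * min y (1 / Z)) * K)) +
        16 * C * (Z + τ) * (y * Q) ^ e) / K ≤
      C7I C C11 C10 * Real.sqrt (y * Q / K) := by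
  unfold C7I
  obtain ⟨A, hAdef⟩ : ∃ A, A = y * Q / K := ⟨_, rfl⟩
  rw [← hAdef] at hA ⊢
  have hA0 : 0 < A := by rw [hAdef]; positivity
  have hAs : A ≤ Real.sqrt A := by
    apply Real.le_sqrt_of_sq_le
    nlinarith
  obtain ⟨m, hm⟩ : ∃ m, m = min y (1 / Z) := ⟨_, rfl⟩
  rw [← hm]
  have hm1 : m ≤ y := by rw [hm]; exact min_le_left _ _
  have hm0 : 0 < m := by rw [hm]; exact lt_min hy (by positivity)
  have hyQ : y * Q = A * K := by rw [hAdef]; field_simp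
  obtain ⟨W, hW⟩ : ∃ W, W = (y * Q) ^ e := ⟨_, rfl⟩
  rw [← hW]
  obtain ⟨D, hD⟩ : ∃ D, D = Real.sqrt ((2 * Q * m) * K) := ⟨_, rfl⟩
  rw [← hD]
  have hdecomp : ((3 + 48 * C) * y * Q + 3 * (C11 * D) + 16 * C * (Z + τ) * W) / K =
      (3 + 48 * C) * A + 3 * (C11 * (D / K)) + 16 * C * ((Z + τ) * W / K) := by
    rw [hAdef]; field_simp
  rw [hdecomp]
  have h1 : 0 ≤ 3 + 48 * C := by positivity
  have h2 : D / K ≤ 2 * Real.sqrt A := by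
    rw [div_le_iff₀ hK, hD]
    have hsA : 0 ≤ Real.sqrt A := Real.sqrt_nonneg _
    apply Real.sqrt_le_iff.2
    refine ⟨by positivity, ?_⟩
    have hsq : Real.sqrt A ^ 2 = A := Real.sq_sqrt hA0.le
    have h3 : Q * m ≤ A * K := by
      rw [← hyQ, mul_comm Q m]
      exact mul_le_mul_of_nonneg_right hm1 hQ.le
    calc 2 * Q * m * K = 2 * (Q * m) * K := by ring
      _ ≤ 2 * (A * K) * K := by gcongr
      _ ≤ 4 * (A * K) * K := by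
        have : 0 ≤ A * K * K := by positivity
        nlinarith
      _ = (2 * Real.sqrt A * K) ^ 2 := by
        rw [mul_pow, mul_pow, hsq]
        ring
  have h3 : (Z + τ) * W / K ≤ C10 * Real.sqrt A := by
    have hW0 : 0 ≤ W := by rw [hW]; positivity
    have hWe : W = A ^ e * K ^ e := by
      rw [hW, hyQ, Real.mul_rpow hA0.le hK.le]
    have hAe : A ^ e ≤ Real.sqrt A := by
      rw [Real.sqrt_eq_rpow]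
      exact Real.rpow_le_rpow_of_exponent_ge hA0 hA he
    have hKe : K ^ (1 - e) * K ^ e = K := by
      rw [← Real.rpow_add hK]; simp
    have hAe0 : 0 ≤ A ^ e := by positivity
    have hKe0 : 0 ≤ K ^ e := by positivity
    calc (Z + τ) * W / K ≤ (C10 * K ^ (1 - e)) * W / K := by gcongr
      _ = C10 * A ^ e * (K ^ (1 - e) * K ^ e) / K := by rw [hWe]; ring
      _ = C10 * A ^ e := by rw [hKe]; field_simp
      _ ≤ C10 * Real.sqrt A := by gcongr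
  have h4 := mul_le_mul_of_nonneg_left hAs h1
  have h5 := mul_le_mul_of_nonneg_left h3 (by positivity : 0 ≤ 16 * C)
  have h6 := mul_le_mul_of_nonneg_left h2 (by positivity : 0 ≤ 3 * C11)
  nlinarith

/-- As `P028H.pair_norm_w`. With `A = y Qa / Ka ≤ 1`, the second term of `Ra / Ka`: take `X = 2 Qa min(y, 1/Za) = 2 min(A Ka, Qa/Za)`,
so `X ≤ 2 min(Ka, Qa/Za)`, and `DDa = C11 √(X Ka)` by `hDa`, hence `3 DDa / Ka = 3 C11 √(X / Ka) ≤ 3 C11 √(2 A) ≤ 3 (2 C11) √A`. -/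
theorem pair_norm_I (γ C e C11 C10 τa τb : ℝ) (hC : 0 ≤ C) (he : 1 / 2 ≤ e) (he1 : e ≤ 1)
    (hR : RowBd γ C e) (hnz : ∀ n : ℕ, 0 < n → 0 < nrm ((n : ℝ) * γ))
    (hC11 : 0 ≤ C11) (hC10 : 0 ≤ C10) (hτa : 1 ≤ τa) (hτb : 1 ≤ τb) (Ka Kb Qa Qb Za Zb : ℕ)
    (hKa : 0 < Ka) (hKb : 0 < Kb)
    (hQa : 0 < Qa) (hQb : 0 < Qb) (hZa1 : 1 ≤ Za) (hZb1 : 1 ≤ Zb) (hZa : Za ^ 3 ≤ Qa)
    (hZb : Zb ^ 3 ≤ Qb) (Sa Sb : Finset ℕ)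
    (hSa : ∀ q ∈ Sa, Qa ≤ q ∧ q < 2 * Qa) (hSb : ∀ r ∈ Sb, Qb ≤ r ∧ r < 2 * Qb)
    (f : ℕ → ℝ) (hf0 : ∀ q, 0 ≤ f q) (hf1 : ∀ q, f q ≤ 1)
    (hσa : ∀ q ∈ Sa, f q * (∑ d ∈ q.divisors, (d : ℝ)) ≤ q)
    (hσb : ∀ r ∈ Sb, f r * (∑ d ∈ r.divisors, (d : ℝ)) ≤ r)
    (hτa' : ∀ q ∈ Sa, (q.divisors.card : ℝ) ≤ τa) (hτb' : ∀ r ∈ Sb, (r.divisors.card : ℝ) ≤ τb)
    (hDa : ∀ q ∈ Sa, ∀ X : ℝ, 0 ≤ X → X ≤ 2 * min (Ka : ℝ) ((Qa : ℝ) / Za) →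
      dsum q X ≤ C11 * Real.sqrt (X * Ka))
    (hDb : ∀ r ∈ Sb, ∀ X : ℝ, 0 ≤ X → X ≤ 2 * min (Kb : ℝ) ((Qb : ℝ) / Zb) →
      dsum r X ≤ C11 * Real.sqrt (X * Kb))
    (hza : (Za : ℝ) + τa ≤ C10 * (Ka : ℝ) ^ (1 - e)) (hzb : (Zb : ℝ) + τb ≤ C10 * (Kb : ℝ) ^ (1 - e))
    (hQ : Qa ≤ Qb) (hK : Ka ≤ Kb) :
    (1 / ((Ka : ℝ) * Kb)) * ∫ x in (0 : ℝ)..1,
        (∑ q ∈ Sa, f q * fej Ka ((q : ℝ) * x - γ)) * (∑ r ∈ Sb, f r * fej Kb ((r : ℝ) * x - γ)) ≤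
      ((∑ q ∈ Sa, f q) / Ka) * ((∑ r ∈ Sb, f r) / Kb) +
        2 * C7I C C11 C10 * Real.sqrt (((∑ q ∈ Sa, f q) / Ka) * ((∑ r ∈ Sb, f r) / Kb)) *
          Real.sqrt (Real.sqrt (((Qa : ℝ) / Qb) * ((Ka : ℝ) / Kb))) := by
  have hKa' : (0 : ℝ) < Ka := by exact_mod_cast hKa
  have hKb' : (0 : ℝ) < Kb := by exact_mod_cast hKb
  have hQa' : (0 : ℝ) < Qa := by exact_mod_cast hQa
  have hQb' : (0 : ℝ) < Qb := by exact_mod_cast hQb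
  have hZa' : (0 : ℝ) < Za := by exact_mod_cast hZa1
  have hZb' : (0 : ℝ) < Zb := by exact_mod_cast hZb1
  have hQ' : (Qa : ℝ) ≤ Qb := by exact_mod_cast hQ
  have hK' : (Ka : ℝ) ≤ Kb := by exact_mod_cast hK
  have he0 : 0 < e := by linarith
  obtain ⟨y, hy⟩ : ∃ y, y = min ((Kb : ℝ) / Qa) ((Ka : ℝ) / Qb) := ⟨_, rfl⟩
  have hy0 : 0 < y := by rw [hy]; exact lt_min (by positivity) (by positivity)
  have hy1 : y ≤ (Ka : ℝ) / Qb := by rw [hy]; exact min_le_right _ _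
  have hy1' : y * Qb ≤ Ka := by
    have := mul_le_mul_of_nonneg_right hy1 hQb'.le
    rwa [div_mul_cancel₀ _ hQb'.ne'] at this
  have hyQa : y * Qa ≤ Ka := by
    have : y * Qa ≤ y * Qb := mul_le_mul_of_nonneg_left hQ' hy0.le
    linarith
  have hyQb : y * Qb ≤ Kb := by linarith
  have hAa : y * Qa / Ka ≤ 1 := by
    rw [div_le_one hKa']
    exact hyQa
  have hAb : y * Qb / Kb ≤ 1 := by
    rw [div_le_one hKb']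
    exact hyQb
  have hXbd : ∀ K Q Z : ℝ, 0 < Q → 0 < Z → y * Q ≤ K →
      2 * Q * min y (1 / Z) ≤ 2 * min K (Q / Z) := by
    intro K Q Z hQ0 hZ0 hyQ
    have h1 : Q * min y (1 / Z) ≤ K := by
      have : Q * min y (1 / Z) ≤ Q * y := mul_le_mul_of_nonneg_left (min_le_left _ _) hQ0.le
      linarith
    have h2 : Q * min y (1 / Z) ≤ Q / Z := by
      have : Q * min y (1 / Z) ≤ Q * (1 / Z) := mul_le_mul_of_nonneg_left (min_le_right _ _) hQ0.le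
      have h3 : Q * (1 / Z) = Q / Z := by ring
      linarith
    have h3 := le_min h1 h2
    linarith
  have hX0 : ∀ Q Z : ℝ, 0 < Q → 0 < Z → 0 ≤ 2 * Q * min y (1 / Z) := by
    intro Q Z hQ0 hZ0
    have : 0 < min y (1 / Z) := lt_min hy0 (by positivity)
    positivity
  obtain ⟨DDa, hDDa⟩ : ∃ DDa, DDa = C11 * Real.sqrt ((2 * (Qa : ℝ) * min y (1 / (Za : ℝ))) * Ka) :=
    ⟨_, rfl⟩
  obtain ⟨DDb, hDDb⟩ : ∃ DDb, DDb = C11 * Real.sqrt ((2 * (Qb : ℝ) * min y (1 / (Zb : ℝ))) * Kb) :=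
    ⟨_, rfl⟩
  have hDDa0 : 0 ≤ DDa := by rw [hDDa]; positivity
  have hDDb0 : 0 ≤ DDb := by rw [hDDb]; positivity
  obtain ⟨Ra, hRa⟩ : ∃ Ra, Ra = (3 + 48 * C) * y * Qa + 3 * DDa +
      16 * C * (Za + τa) * (y * Qa) ^ e := ⟨_, rfl⟩
  obtain ⟨Rb, hRb⟩ : ∃ Rb, Rb = (3 + 48 * C) * y * Qb + 3 * DDb +
      16 * C * (Zb + τb) * (y * Qb) ^ e := ⟨_, rfl⟩
  have hb := pair_bound_I γ C e τa τb DDa DDb hC he0 hR hnz (by linarith) (by linarith) hDDa0 hDDb0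
    Ka Kb Qa Qb Za Zb
    hKa hKb hQa hQb hZa1 hZb1 hZa hZb Sa Sb hSa hSb f hf0 hf1 hσa hσb hτa' hτb' y Ra Rb hy
    (fun q hq => by
      rw [hDDa]
      exact hDa q hq _ (hX0 _ _ hQa' hZa') (hXbd _ _ _ hQa' hZa' hyQa))
    (fun r hr => by
      rw [hDDb]
      exact hDb r hr _ (hX0 _ _ hQb' hZb') (hXbd _ _ _ hQb' hZb' hyQb))
    hRa hRb
  have hRa1 : Ra / Ka ≤ C7I C C11 C10 * Real.sqrt (y * Qa / Ka) := by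
    rw [hRa, hDDa]
    exact R_div_le_I C C11 C10 e τa Ka Qa Za y hC hC11 hC10 he (by linarith) hKa' hQa' hZa' hy0 hAa
      hza
  have hRb1 : Rb / Kb ≤ C7I C C11 C10 * Real.sqrt (y * Qb / Kb) := by
    rw [hRb, hDDb]
    exact R_div_le_I C C11 C10 e τb Kb Qb Zb y hC hC11 hC10 he (by linarith) hKb' hQb' hZb' hy0 hAb
      hzb
  have hC7 : 0 ≤ C7I C C11 C10 := by
    unfold C7I
    positivity
  have hAP : (y * Qa / Ka) * (y * Qb / Kb) ≤ ((Qa : ℝ) / Qb) * ((Ka : ℝ) / Kb) := by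
    have e1 : (y * Qa / Ka) * (y * Qb / Kb) = ((y * Qb) ^ 2 / Ka) * ((Qa : ℝ) / Qb) * (1 / Kb) := by
      field_simp
    have e2 : ((Qa : ℝ) / Qb) * ((Ka : ℝ) / Kb) = ((Ka : ℝ) ^ 2 / Ka) * ((Qa : ℝ) / Qb) * (1 / Kb) := by
      field_simp
    rw [e1, e2]
    have h0 : 0 ≤ y * Qb := by positivity
    have h1 : (y * Qb) ^ 2 ≤ (Ka : ℝ) ^ 2 := by gcongr
    gcongr
  have hmasa : 0 ≤ ∑ q ∈ Sa, f q := Finset.sum_nonneg fun q _ => hf0 q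
  have hmasb : 0 ≤ ∑ r ∈ Sb, f r := Finset.sum_nonneg fun r _ => hf0 r
  have hmain := sqrt_pair_le (∑ q ∈ Sa, f q) (∑ r ∈ Sb, f r) Ra Rb Ka Kb (C7I C C11 C10) _ _ _
    hmasa hmasb hKa' hKb' hC7 (by positivity) (by positivity)
    hRa1 hRb1 hAP
  have hpos : 0 ≤ 1 / ((Ka : ℝ) * Kb) := by positivity
  have h1 := mul_le_mul_of_nonneg_left hb hpos
  have e' : 1 / ((Ka : ℝ) * Kb) * ((∑ q ∈ Sa, f q) * (∑ r ∈ Sb, f r) +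
      2 * (Real.sqrt ((∑ q ∈ Sa, f q) * Ra) * Real.sqrt ((∑ r ∈ Sb, f r) * Rb))) =
      ((∑ q ∈ Sa, f q) / Ka) * ((∑ r ∈ Sb, f r) / Kb) +
        2 * ((1 / ((Ka : ℝ) * Kb)) *
          (Real.sqrt ((∑ q ∈ Sa, f q) * Ra) * Real.sqrt ((∑ r ∈ Sb, f r) * Rb))) := by
    field_simp
  rw [e'] at h1
  refine h1.trans ?_
  nlinarith [hmain]

end Vale.Agent.Lib.P028I
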