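import Vale.Agent.Lib.P028I.Main

/-! Corollaries of `final_I_upper`: the divisor window form, and every non-Liouville irrational shift. -/

open scoped BigOperators
open Finset MeasureTheory Filter

namespace Vale.Agent.Lib.P028I

/-- If no divisor of `q` below `min (A/ψ) (8 q^β)` exceeds `C₁ / (τ² ψ)`, the divisor sum is small. -/
theorem dsum_of_window (q : ℕ) (p C₁ X : ℝ) (hp : 0 < p) (hC₁ : 0 ≤ C₁) (hX : 0 ≤ X)
    (hwin : ∀ t ∈ q.divisors, (t : ℝ) < X → (t : ℝ) * (q.divisors.card : ℝ) ^ 2 * p ≤ C₁) :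
    ∑ t ∈ q.divisors.filter (fun t : ℕ => (t : ℝ) < X), (t : ℝ) ≤ Real.sqrt C₁ * Real.sqrt (X / p) := by
  classical
  set T : ℝ := (q.divisors.card : ℝ) with hT
  have hR0 : 0 ≤ Real.sqrt C₁ * Real.sqrt (X / p) := by positivity
  by_cases hemp : (q.divisors.filter (fun t : ℕ => (t : ℝ) < X)).Nonempty
  · have hcard : 0 < q.divisors.card := by
      obtain ⟨t, ht⟩ := hemp
      exact Finset.card_pos.2 ⟨t, (mem_filter.1 ht).1⟩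
    have hT0 : 0 < T := by rw [hT]; exact_mod_cast hcard
    have hterm : ∀ t ∈ q.divisors.filter (fun t : ℕ => (t : ℝ) < X),
        (t : ℝ) ≤ Real.sqrt C₁ * Real.sqrt (X / p) / T := by
      intro t ht
      obtain ⟨h1, h2⟩ := mem_filter.1 ht
      have h3 := hwin t h1 h2
      rw [le_div_iff₀ hT0, ← Real.sqrt_mul hC₁]
      apply Real.le_sqrt_of_sq_le
      have ht0 : (0 : ℝ) ≤ t := Nat.cast_nonneg _
      have h4 : ((t : ℝ) * T) ^ 2 = (t : ℝ) * ((t : ℝ) * T ^ 2 * p) / p := by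
        field_simp
      rw [h4, show C₁ * (X / p) = X * C₁ / p by ring]
      apply div_le_div_of_nonneg_right _ hp.le
      exact mul_le_mul h2.le h3 (by positivity) hX
    calc ∑ t ∈ q.divisors.filter (fun t : ℕ => (t : ℝ) < X), (t : ℝ)
        ≤ ∑ _t ∈ q.divisors.filter (fun t : ℕ => (t : ℝ) < X), Real.sqrt C₁ * Real.sqrt (X / p) / T :=
          Finset.sum_le_sum hterm
      _ = ((q.divisors.filter (fun t : ℕ => (t : ℝ) < X)).card : ℝ) *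
            (Real.sqrt C₁ * Real.sqrt (X / p) / T) := by
          rw [Finset.sum_const, nsmul_eq_mul]
      _ ≤ T * (Real.sqrt C₁ * Real.sqrt (X / p) / T) := by
          apply mul_le_mul_of_nonneg_right _ (by positivity)
          rw [hT]
          exact_mod_cast Finset.card_filter_le _ _
      _ = Real.sqrt C₁ * Real.sqrt (X / p) := by
          field_simp
  · rw [Finset.not_nonempty_iff_eq_empty.1 hemp, Finset.sum_empty]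
    exact hR0

/-- The divisor window form of `final_I_upper`. -/
theorem window_upper (γ κ w A C₁ : ℝ) (hκ : 0 < κ) (hw : 1 ≤ w) (hA : 1 ≤ A) (hC₁ : 0 ≤ C₁)
    (hdio : ∀ n : ℕ, 0 < n → ∀ a : ℤ, κ / (n : ℝ) ^ w ≤ |(n : ℝ) * γ - a|)
    (ψ : ℕ → ℝ) (h0 : ∀ q, 0 ≤ ψ q) (q₀ : ℕ)
    (hmono : ∀ q r : ℕ, q₀ ≤ q → 1 / (q : ℝ) < ψ q → 1 / (r : ℝ) < ψ r → 2 * q ≤ r → ψ r ≤ A * ψ q)
    (hle : ∀ q : ℕ, q₀ ≤ q → 1 / (q : ℝ) < ψ q → ψ q ≤ 1 / 9)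
    (hτ : ∀ q : ℕ, q₀ ≤ q → 1 / (q : ℝ) < ψ q → (q.divisors.card : ℝ) ^ (1 + w ^ 2) * ψ q ≤ 1)
    (hwin : ∀ q : ℕ, q₀ ≤ q → 1 / (q : ℝ) < ψ q → ∀ t ∈ q.divisors,
      (t : ℝ) < min (A / ψ q) (8 * (q : ℝ) ^ ((1 + w ^ 2) / (2 + w ^ 2))) →
      (t : ℝ) * (q.divisors.card : ℝ) ^ 2 * ψ q ≤ C₁)
    (hdiv : ¬ Summable (fun q : ℕ => (Nat.totient q : ℝ) / q * ψ q)) :
    ∀ᵐ x : ℝ, ∃ᶠ q : ℕ in atTop, ∃ a : ℤ, |(q : ℝ) * x - a - γ| < ψ q := by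
  refine final_I_upper γ κ w A (Real.sqrt C₁) hκ hw hA (Real.sqrt_nonneg _) hdio ψ h0 q₀ hmono hle hτ ?_ hdiv
  intro q hq hq' X hX0 hX
  have hp : 0 < ψ q := lt_of_le_of_lt (by positivity) hq'
  exact dsum_of_window q (ψ q) C₁ X hp hC₁ hX0 fun t ht htX =>
    hwin q hq hq' t ht (lt_of_lt_of_le htX hX)

/-- Every non-Liouville irrational shift, divisor sum form. -/
theorem nonLiouville_I (γ : ℝ) (hirr : Irrational γ) (hL : ¬ Liouville γ) :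
    ∃ β : ℝ, 2 / 3 ≤ β ∧ β < 1 ∧ ∀ (ψ : ℕ → ℝ) (A C : ℝ) (q₀ : ℕ), (∀ q, 0 ≤ ψ q) → 1 ≤ A → 0 ≤ C →
      (∀ q r : ℕ, q₀ ≤ q → 1 / (q : ℝ) < ψ q → 1 / (r : ℝ) < ψ r → 2 * q ≤ r → ψ r ≤ A * ψ q) →
      (∀ q : ℕ, q₀ ≤ q → 1 / (q : ℝ) < ψ q → ψ q ≤ 1 / 9) →
      (∀ q : ℕ, q₀ ≤ q → 1 / (q : ℝ) < ψ q → (q.divisors.card : ℝ) ^ (β / (1 - β)) * ψ q ≤ 1) →
      (∀ q : ℕ, q₀ ≤ q → 1 / (q : ℝ) < ψ q → ∀ X : ℝ, 0 ≤ X → X ≤ min (A / ψ q) (8 * (q : ℝ) ^ β) →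
        ∑ t ∈ q.divisors.filter (fun t : ℕ => (t : ℝ) < X), (t : ℝ) ≤ C * Real.sqrt (X / ψ q)) →
      ¬ Summable (fun q : ℕ => (Nat.totient q : ℝ) / q * ψ q) →
      ∀ᵐ x : ℝ, ∃ᶠ q : ℕ in atTop, ∃ a : ℤ, |(q : ℝ) * x - a - γ| < ψ q := by
  obtain ⟨c, n, hc, hdio0⟩ := Vale.Agent.Lib.P028E.dio_of_not_liouville γ hirr hL
  set w : ℝ := (n : ℝ) + 1 with hw
  have hw1 : 1 ≤ w := by
    rw [hw]
    have : (0 : ℝ) ≤ n := Nat.cast_nonneg _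
    linarith
  have hw3 : (0 : ℝ) < 2 + w ^ 2 := by positivity
  have hdio : ∀ k : ℕ, 0 < k → ∀ a : ℤ, c / (k : ℝ) ^ w ≤ |(k : ℝ) * γ - a| := by
    intro k hk a
    have hk1 : (1 : ℝ) ≤ k := by exact_mod_cast hk
    have hk0 : (0 : ℝ) < k := by linarith
    have h := hdio0 k hk (-a)
    have h' : c ≤ (k : ℝ) ^ n * |(k : ℝ) * γ - a| := by
      have : (k : ℝ) * γ + ((-a : ℤ) : ℝ) = (k : ℝ) * γ - a := by
        push_cast
        ring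
      rwa [this] at h
    have hpow : (k : ℝ) ^ w = (k : ℝ) ^ n * k := by
      rw [hw, Real.rpow_add hk0, Real.rpow_one, Real.rpow_natCast]
    rw [hpow, div_le_iff₀ (by positivity)]
    have hpn : (0 : ℝ) < (k : ℝ) ^ n := by positivity
    have habs : 0 ≤ |(k : ℝ) * γ - a| := abs_nonneg _
    have : (k : ℝ) ^ n * |(k : ℝ) * γ - a| ≤ |(k : ℝ) * γ - a| * ((k : ℝ) ^ n * k) := by
      have h3 : (k : ℝ) ^ n * |(k : ℝ) * γ - a| * 1 ≤ (k : ℝ) ^ n * |(k : ℝ) * γ - a| * k :=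
        mul_le_mul_of_nonneg_left hk1 (by positivity)
      nlinarith
    linarith
  have hβ : 1 - (1 + w ^ 2) / (2 + w ^ 2) = 1 / (2 + w ^ 2) := by
    field_simp
    ring
  have hE : ((1 + w ^ 2) / (2 + w ^ 2)) / (1 - (1 + w ^ 2) / (2 + w ^ 2)) = 1 + w ^ 2 := by
    rw [hβ]
    field_simp
  refine ⟨(1 + w ^ 2) / (2 + w ^ 2), ?_, ?_, ?_⟩
  · rw [div_le_div_iff₀ (by norm_num) hw3]
    nlinarith
  · rw [div_lt_one hw3]
    linarith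
  · intro ψ A C q₀ h0 hA hC hmono hle hτ hdsum hdiv
    rw [hE] at hτ
    exact final_I_upper γ c w A C hc hw1 hA hC hdio ψ h0 q₀ hmono hle hτ hdsum hdiv

end Vale.Agent.Lib.P028I
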